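import Vale.Agent.P315.H933.Pre
import Vale.Agent.P315.H486.Inst2
import Vale.Agent.P315.H36.ParPT
import Vale.Agent.P315.H36.VisL

/-! The START phase as the fields `pre`, `vis_len`, `vis_lt` and `quiet` of the conditions of
`main_solves2`, for the parameter functions `StF`. -/

set_option autoImplicit false

namespace Vale.Agent.P315.H933

open Vale.Agent.P315 Vale.Agent.P315.H817 Vale.Agent.P315.H36 Vale.Agent.P315.H142
  Vale.Agent.P315.H486 Vale.Agent.P315.RAM

theorem visList_eq (T : Tb) (q : SP) (X Y sd : ℕ → ℕ) :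
    visList T q X Y sd =
      visL T q X Y (fun t => sd t % q.M) (fun t => sd (q.s + t) % q.b) := rfl

theorem visL_congr {T : Tb} {q : SP} {X Y hub hub' off off' : ℕ → ℕ}
    (h : ∀ t < q.s, hub t = hub' t) (h' : ∀ t < q.R, off t = off' t) :
    visL T q X Y hub off = visL T q X Y hub' off' := by
  unfold visL
  exact List.map_congr_left fun a _ => entry_congr h h'

/-- The table as a function of the seeds. -/
noncomputable def visG (G : StF (ℕ × ℕ)) (x y : List ℕ) (sd : ℕ → ℕ) : List ℕ :=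
  visL (G.tb (len2 x y)) (G.q (len2 x y)) (fun i => x.getD i 0) (fun i => y.getD i 0)
    (fun t => sd t % (G.q (len2 x y)).M)
    (fun t => sd ((G.q (len2 x y)).s + t) % (G.q (len2 x y)).b)

/-- The time of the START phase. -/
def tpre (G : StF (ℕ × ℕ)) (p : ℕ × ℕ) : ℕ :=
  36 + (phaseHP.sz * (G.r4 p + 2) ^ 6 + G.Kr p * G.nS p * (G.q p).tot * 100)

/-- The number of entries. -/
def nvG (G : StF (ℕ × ℕ)) (p : ℕ × ℕ) : ℕ := G.Kr p * G.nS p * G.nE p

theorem length_visG (G : StF (ℕ × ℕ)) (x y : List ℕ) (sd : ℕ → ℕ) :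
    (visG G x y sd).length = nvG G (len2 x y) := length_visL

/-- The list depends only on the first `nSd` seeds. -/
theorem visG_congr {G : StF (ℕ × ℕ)} {x y : List ℕ} {sd sd' : ℕ → ℕ}
    (h : ∀ t < G.nSd (len2 x y), sd t = sd' t) : visG G x y sd = visG G x y sd' := by
  have e : G.nSd (len2 x y) = (G.q (len2 x y)).s + (G.q (len2 x y)).R := rfl
  refine visL_congr (fun t ht => ?_) (fun t ht => ?_)
  · show sd t % _ = sd' t % _
    rw [h t (by omega)]
  · show sd _ % _ = sd' _ % _
    rw [h _ (by omega)]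

/-- The hubs and the offsets are the seeds behind the seeds of the strategy. -/
theorem visG_sdL {G : StF (ℕ × ℕ)} {x y : List ℕ} {N NS : ℕ} {c : ℕ → ℕ}
    (h : G.nSd (len2 x y) ≤ NS) : visG G x y (MulF.sdL N NS c) =
      visL (G.tb (len2 x y)) (G.q (len2 x y)) (fun i => x.getD i 0) (fun i => y.getD i 0)
        (fun t => c (N + t) % (G.q (len2 x y)).M)
        (fun t => c (N + (G.q (len2 x y)).s + t) % (G.q (len2 x y)).b) := by
  have e : G.nSd (len2 x y) = (G.q (len2 x y)).s + (G.q (len2 x y)).R := rfl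
  refine visL_congr (fun t ht => ?_) (fun t ht => ?_)
  · show MulF.sdL N NS c t % _ = _
    unfold MulF.sdL
    rw [if_pos (by omega)]
  · show MulF.sdL N NS c _ % _ = _
    unfold MulF.sdL
    rw [if_pos (by omega), Nat.add_assoc]

theorem ends_le (G : StF (ℕ × ℕ)) (p : ℕ × ℕ) :
    ∀ e < (G.tb p).nE, (G.tb p).mu * e ≤ 2 * (G.tb p).l2 := by
  intro e he
  have he' : e ≤ 2 * G.l2 p / G.mu p := Nat.lt_succ_iff.mp he
  show G.mu p * e ≤ 2 * G.l2 p
  exact (Nat.mul_le_mul_left _ he').trans (Nat.mul_div_le _ _)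

/-- All entries are at most the length of a row. -/
theorem mem_visG_le {G : StF (ℕ × ℕ)} {x y : List ℕ} {sd : ℕ → ℕ} {v : ℕ}
    (hv : v ∈ visG G x y sd) : v ≤ 2 * G.l2 (len2 x y) :=
  mem_visL_le (ends_le G _) hv

/-- The geometry fits. -/
theorem tbOk {G : StF (ℕ × ℕ)} {p : ℕ × ℕ} (hq : (G.q p).Ok) (hl : 2 * G.l2 p < 2 ^ (G.e p + 1)) :
    (G.tb p).Ok (G.q p) := ⟨hq, ends_le G p, hl⟩

/-- **The field `pre` of the conditions of `main_solves2`.** -/
theorem startFit {F : MulF} {G : StF (ℕ × ℕ)} {x y : List ℕ} (hPre : F.Pre = preProg)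
    (her : ∀ i ∈ StF.regs, i ∈ F.er)
    (hext : ∀ i ∈ StF.regs, F.ext i (len2 x y) = G.val i (len2 x y))
    (hT : (G.tb (len2 x y)).Ok (G.q (len2 x y))) (hNS : G.nSd (len2 x y) ≤ F.NS (len2 x y))
    (hNV : F.NV (len2 x y) = nvG G (len2 x y)) :
    ∀ E : Env, 130 ≤ E.S → ∀ (sd : ℕ → ℕ) (σ : State), Base F.par F.regs x y σ →
      (∀ i, i < F.NS (len2 x y) → σ.arr 140 i = sd i) →
      Spec E σ F.Pre (tpre G (len2 x y)) (fun σ' => ∀ j, j < F.NV (len2 x y) →
        σ'.arr 150 j = (visG G x y sd).getD j 0) := by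
  intro E hS sd σ hb hsd
  have hmem : ∀ i ∈ StF.regs, i ∈ F.regs := fun i hi =>
    List.mem_append_right _ (her i hi)
  have hpar : ∀ i ∈ StF.regs, F.par i (len2 x y) = G.val i (len2 x y) := fun i hi => by
    rw [F.par_ext (her i hi), hext i hi]
  set p := len2 x y with hp
  have e95 : F.par 95 p = G.r4 p := hpar 95 (by decide)
  have hP : PrePar F.par F.regs (G.tb p) (G.q p) p := by
    refine ⟨fun i hi => hmem i ?_, hT, hpar 80 (by decide), hpar 81 (by decide),
      hpar 82 (by decide), hpar 83 (by decide), hpar 84 (by decide), hpar 85 (by decide),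
      hpar 86 (by decide), hpar 87 (by decide), hpar 88 (by decide), hpar 89 (by decide),
      hpar 90 (by decide), hpar 91 (by decide), hpar 92 (by decide), hpar 93 (by decide),
      ?_, ?_, ?_, ?_, ?_, ?_, ?_, ?_⟩
    · exact (show ∀ k ∈ preL.map Prod.snd, k ∈ StF.regs by decide) i hi
    · rw [show F.par 94 p = G.r3 p from hpar 94 (by decide)]
      show G.Kr p * (2 * G.l2 p) + 2 ^ (G.e p + 3) ≤ _
      unfold StF.r3
      exact (Nat.le_add_right _ _).trans (Nat.le_add_right _ _)
    · rw [show F.par 94 p = G.r3 p from hpar 94 (by decide)]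
      unfold StF.r3
      exact (Nat.le_add_left _ _).trans (Nat.le_add_right _ _)
    · rw [e95]; unfold StF.r4; omega
    · rw [e95]; show G.Kr p ≤ _; unfold StF.r4; omega
    · rw [e95]; show G.nS p ≤ _; unfold StF.r4; omega
    · rw [e95]; show G.nE p ≤ _; unfold StF.r4; omega
    · rw [e95, show F.par 94 p = G.r3 p from hpar 94 (by decide)]
      unfold StF.r3
      exact Nat.le_add_left _ _
    · rw [show F.par 96 p = G.r5 p from hpar 96 (by decide)]
      exact le_rfl
  have key := pre_spec (E := E) (σ := σ) (sd := sd) hS (p := p) rfl hP hb (fun i hi => hsd i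
    (lt_of_lt_of_le hi hNS))
  rw [hPre, hNV]
  rw [e95] at key
  exact key

/-- The program keeps the inputs and the parameters. -/
theorem startQuiet {er : List ℕ} (h : ∀ i ∈ er, i ∉ preW) :
    Quiet ([50, 51, 52, 53, 61, 68, 69, 71, 74, 75, 76, 78] ++ er) preProg := by
  refine pre_quiet fun i hi => ?_
  rcases List.mem_append.mp hi with h1 | h1
  · exact (show ∀ k ∈ [50, 51, 52, 53, 61, 68, 69, 71, 74, 75, 76, 78], k ∉ preW by decide) i h1
  · exact h i h1

/-- Parameter registers which are free for the main program and for the START phase. -/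
theorem notMem_preW {i : ℕ} (h : (80 ≤ i ∧ i < 100) ∨ (102 ≤ i ∧ i < 140)) : i ∉ preW := by
  have e : ∀ k ∈ preW, ¬ ((80 ≤ k ∧ k < 100) ∨ (102 ≤ k ∧ k < 140)) := by decide
  exact fun hi => e i hi h

end Vale.Agent.P315.H933
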