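import Vale.Agent.P315.H933.Blk
import Vale.Agent.P315.H142.Ends

/-! The tables of the base algorithm on the machine: prologue, both tables, cost. -/

set_option autoImplicit false

namespace Vale.Agent.P315.H933

open Vale.Agent.P315 Vale.Agent.P315.H817 Vale.Agent.P315.H36 Vale.Agent.P315.H142

variable {ρ : ℕ → ℕ} {P : Pm} {ns nR o : ℕ} {sd : ℕ → ℕ}

/-- Derived parameters. -/
def pro : HP := .seq (.set 162 (emul (.reg 144) (.reg 160)))
  (.seq (.set 164 (emul (.reg 146) (.reg 160)))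
  (.seq (.set 163 (eadd (.reg 161) (.reg 164)))
  (.seq (.set 165 (emul (.reg 147) (.reg 146)))
    (.set 166 (emul (.reg 146) (.reg 162))))))

theorem pro_wr : pro.wr = [162, 164, 163, 165, 166] := rfl
theorem pro_wa : pro.wa = [] := rfl

/-- The state holds the inputs of the program. -/
structure Inp0 (P : Pm) (ns nR o : ℕ) (sd : ℕ → ℕ) (s : State) : Prop where
  a0 : s.arr 0 = P.X
  a1 : s.arr 1 = P.Y
  a140 : s.arr 140 = sd
  r140 : s.reg 140 = P.px
  r142 : s.reg 142 = P.py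
  r144 : s.reg 144 = P.g
  r146 : s.reg 146 = P.b
  r147 : s.reg 147 = P.K
  r148 : s.reg 148 = ns
  r149 : s.reg 149 = P.d
  r150 : s.reg 150 = nR
  r151 : s.reg 151 = o
  r160 : s.reg 160 = P.v
  r161 : s.reg 161 = P.M
  bx : P.px + P.k * P.w ≤ s.reg 3
  by' : P.py + JJ P * P.g ≤ s.reg 3
  bw : wt (P.b * P.w) (P.b * P.w) ≤ s.reg 3
  b1 : JJ P * P.g + P.k * P.w ≤ s.reg 3
  lk : P.k ≤ s.reg 4
  lJ : JJ P + 1 ≤ s.reg 4
  ls : ns ≤ s.reg 4
  lr : nR ≤ s.reg 4
  lb : P.b ≤ s.reg 4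
  lK : P.K ≤ s.reg 4
  l34 : s.reg 4 ≤ s.reg 3
  b0 : 0 < P.b
  M0 : 0 < P.M

theorem pro_wp {s : State} {Q : State → Prop} (h : Inp0 P ns nR o sd s)
    (hQ : ∀ s', Frame s s' pro.wr pro.wa → Inp P ns nR o sd s' → Q s') : Wp ρ pro Q s := by
  have hf := pro.frame ρ s
  suffices H : Wp ρ pro (Inp P ns nR o sd) s from hQ _ hf H
  have h1 := (le_wt (P.b * P.w)).trans h.bw
  have h2 : P.w ≤ P.b * P.w := Nat.le_mul_of_pos_left _ h.b0
  have h3 := h.lJ
  have h4 := h.l34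
  have h5 := h.lk
  have hJ : JJ P = P.M + P.b * P.v := rfl
  have hw : P.w = P.g * P.v := rfl
  have hk : P.k = P.K * P.b := rfl
  unfold pro
  refine Wp.seq (Wp.set P.w ?_ (by omega) ?_)
  · simp [h.r144, h.r160, hw]
  refine Wp.seq (Wp.set (P.b * P.v) ?_ (by simp; omega) ?_)
  · simp [h.r146, h.r160]
  refine Wp.seq (Wp.set (JJ P) ?_ (by simp; omega) ?_)
  · simp [h.r161, hJ]
  refine Wp.seq (Wp.set P.k ?_ (by simp; omega) ?_)
  · simp [h.r147, h.r146, hk]
  refine Wp.set (P.b * P.w) ?_ (by simp; omega) ?_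
  · simp [h.r146]
  refine ⟨h.a0, h.a1, h.a140, ?_, ?_, ?_, ?_, ?_, ?_, ?_, ?_, ?_, ?_, ?_, ?_, ?_, ?_, ?_, ?_,
    ?_, ?_, ?_, ?_, ?_, ?_, ?_, ?_, ?_, ?_, ?_, h.b0, h.M0⟩
  · simpa using h.r140
  · simpa using h.r142
  · simpa using h.r144
  · simpa using h.r146
  · simpa using h.r147
  · simpa using h.r148
  · simpa using h.r149
  · simpa using h.r150
  · simpa using h.r151
  · simpa using h.r160
  · simpa using h.r161
  · simp
  · simp
  · simp
  · simp
  · simp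
  · simpa using h.bx
  · simpa using h.by'
  · simpa using h.bw
  · simpa using h.b1
  · simpa using h.lk
  · simpa using h.lJ
  · simpa using h.ls
  · simpa using h.lr
  · simpa using h.lb
  · simpa using h.lK
  · simpa using h.l34

/-- **Both tables.** -/
def tabHP : HP := .seq pro (.seq ph1 (.seq ph2 (.seq ph3 ph4)))

/-- Budget. -/
def TOT (P : Pm) (ns nR : ℕ) : ℕ :=
  ns * ((P.M + P.k) * c1 P) + P.K * (nR * (P.M * c1 P + P.d * c2 P))

/-- Registers and arrays written. -/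
def tabR : List ℕ := [5, 9, 10, 11, 12, 13, 14, 15, 16, 17, 18, 19, 162, 163, 164, 165, 166, 180,
  181, 182, 183, 184, 185, 186, 187, 188, 189, 190, 191]

def tabA : List ℕ := [2, 143, 144, 148, 149]

theorem tab_frame (s : State) : Frame s (tabHP.run ρ s) tabR tabA :=
  (tabHP.frame ρ s).mono (by decide) (by decide)

theorem tabHP_wp {s : State} {Q : State → Prop} (h : Inp0 P ns nR o sd s)
    (h5 : TOT P ns nR ≤ s.reg 5)
    (hQ : ∀ s', Frame s s' tabR tabA → s.reg 5 ≤ s'.reg 5 + TOT P ns nR →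
      Inp P ns nR o sd s' →
      EndEnv P (fun i j => Aof P (hubOf P o sd) i j ns) (Bof P nR (offOf P ns o sd)) s' → Q s') :
    Wp ρ tabHP Q s := by
  have hf := tab_frame (ρ := ρ) s
  suffices H : Wp ρ tabHP (fun s' => s.reg 5 ≤ s'.reg 5 + TOT P ns nR ∧ Inp P ns nR o sd s' ∧
      EndEnv P (fun i j => Aof P (hubOf P o sd) i j ns) (Bof P nR (offOf P ns o sd)) s') s from
    hQ _ hf H.1 H.2.1 H.2.2
  have hT : TOT P ns nR = ns * ((P.M + P.k) * c1 P) +
    P.K * (nR * (P.M * c1 P + P.d * c2 P)) := rfl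
  unfold tabHP
  refine Wp.seq (pro_wp h fun s1 f1 g1 => ?_)
  have e1 : s1.reg 5 = s.reg 5 := f1.reg 5 (by decide)
  refine Wp.seq (ph1_wp g1 fun s2 f2 q2 => ?_)
  have g2 := g1.frame f2 (by decide) (by decide)
  have e2 : s2.reg 5 = s1.reg 5 := f2.reg 5 (by decide)
  refine Wp.seq (ph2_wp g2 (by omega) q2 fun s3 f3 k3 q3 => ?_)
  have g3 := g2.frame f3 (by decide) (by decide)
  refine Wp.seq (ph3_wp g3 fun s4 f4 q4 => ?_)
  have g4 := g3.frame f4 (by decide) (by decide)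
  have e4 : s4.reg 5 = s3.reg 5 := f4.reg 5 (by decide)
  refine ph4_wp g4 (by omega) q4 fun s5 f5 k5 q5 => ?_
  have g5 := g4.frame f5 (by decide) (by decide)
  refine ⟨by omega, g5, ⟨g5.r144, g5.r146, g5.r160, g5.r161, g5.r162, g5.r163, g5.r164, ?_, q5,
    g5.lJ, g5.lK, g5.lb, g5.b1, g5.lk.trans g5.l34⟩⟩
  intro i hi j hj
  rw [f5.arr 143 (by decide), f4.arr 143 (by decide)]
  exact q3 i hi j hj

/-! ### Checks -/

theorem tab_ok : tabHP.ok 2 60 = true := by decide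

theorem tab_bigs : ∀ q ∈ tabHP.bigs, q = cGuard 0 1 ∨ q = cGuard 1 1 := by
  intro q hq
  simp only [tabHP, pro, ph1, ph2, ph2y, ph2x, ph2r, ph3, ph4, ph4r, ph4d, ph4s, ph4c, ph4b, call,
    cCall, HP.bigs, List.nil_append, List.append_nil, List.mem_append, List.mem_cons,
    List.not_mem_nil, or_false] at hq
  tauto

/-- The program is admissible. -/
theorem tab_Ok (E : Env) {T : ℕ} (hT : 100 ≤ T) (hS : 130 ≤ E.S) : tabHP.Ok E T := by
  refine HP.Ok_of_ok (c := 2) (m := 60) E.hR (by omega) tabHP tab_ok ?_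
  intro q hq
  rcases tab_bigs q hq with rfl | rfl
  · exact cGuard_bigOk E hT 0 1
  · exact cGuard_bigOk E hT 1 1

theorem tab_depth : tabHP.depth = 4 := rfl

end Vale.Agent.P315.H933
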