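import Vale.Agent.P315.H933.Tab

/-! The block table of the base algorithm on the machine. -/

set_option autoImplicit false

namespace Vale.Agent.P315.H933

open Vale.Agent.P315 Vale.Agent.P315.H817 Vale.Agent.P315.H36 Vale.Agent.P315.H142

variable {ρ : ℕ → ℕ} {P : Pm} {ns nR o : ℕ} {sd : ℕ → ℕ}

/-! ### Phase 3: trivial values of `B` -/

def ph3 : HP := .loop 185 (.reg 147) (.loop 181 (.reg 161)
  (.put 144 (eadd (emul (.reg 185) (.reg 161)) (.reg 181)) (emul (.lit 2) (.reg 166))))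

theorem ph3_wr : ph3.wr = [185, 181] := rfl
theorem ph3_wa : ph3.wa = [144] := rfl

theorem ph3_wp {s : State} {Q : State → Prop} (h : Inp P ns nR o sd s)
    (hQ : ∀ s', Frame s s' ph3.wr ph3.wa → (∀ i < P.K, ∀ j < P.M,
      s'.arr 144 (i * P.M + j) = 2 * (P.b * P.w)) → Q s') : Wp ρ ph3 Q s := by
  have hf := ph3.frame ρ s
  suffices H : Wp ρ ph3 (fun s' => ∀ i < P.K, ∀ j < P.M,
      s'.arr 144 (i * P.M + j) = 2 * (P.b * P.w)) s from hQ _ hf H
  unfold ph3
  refine Wp.loopF P.K (by simp [h.r147]) h.lK (fun t s' => ∀ i < t, ∀ j < P.M,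
    s'.arr 144 (i * P.M + j) = 2 * (P.b * P.w)) (by simp) ?_ (fun s' _ h' => h')
  intro i hi s1 hf1 I1
  have g := (h.frame hf1 (by decide) (by decide)).setReg 185 i (by decide)
  refine Wp.loopF P.M (by simpa using g.r161) g.lM (fun t s' =>
    (∀ i' < i, ∀ j < P.M, s'.arr 144 (i' * P.M + j) = 2 * (P.b * P.w)) ∧
      ∀ j < t, s'.arr 144 (i * P.M + j) = 2 * (P.b * P.w)) ⟨by simpa using I1, by simp⟩ ?_ ?_
  · intro j hj s2 hf2 I2
    have g2 := (g.frame hf2 (by decide) (by decide)).setReg 181 j (by decide)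
    have e180 : s2.reg 185 = i := by rw [hf2.reg 185 (by decide)]; simp
    refine Wp.put (i * P.M + j) (2 * (P.b * P.w)) ?_ ?_ ?_ ⟨?_, ?_⟩
    · have := g2.r161; simp at this; simp [e180, this]
    · have := g2.r166; simp at this; simp [this]
    · exact (le_wt (P.b * P.w)).trans g2.bw
    · intro i' hi' j' hj'
      simp only [State.setArr_arr, State.setReg_arr]
      split_ifs with hc
      · rfl
      · exact I2.1 i' hi' j' hj'
    · intro j' hj'
      simp only [State.setArr_arr, State.setReg_arr]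
      split_ifs with hc
      · rfl
      · exact I2.2 j' (by
          by_contra h5
          have : j' = j := by omega
          subst this
          exact hc ⟨trivial, rfl⟩)
  · intro s2 _ I2 i' hi' j' hj'
    rcases Nat.lt_succ_iff_lt_or_eq.mp hi' with h3 | h3
    · exact I2.1 i' h3 j' hj'
    · subst h3; exact I2.2 j' hj'

/-! ### Phase 4: distances of a sampled window -/

/-- Distances of the window in register `189` to all `y`-windows. -/
def ph4d : HP := .loop 181 (.reg 161) (.seq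
  (call 0 1 (eadd (.reg 140) (emul (.reg 189) (.reg 162))) (.reg 162)
    (eadd (.reg 142) (emul (.reg 181) (.reg 144))) (.reg 162))
  (.put 149 (.reg 181) (.get 2 (.reg 13))))

theorem ph4d_wr : ph4d.wr = 181 :: callW := rfl
theorem ph4d_wa : ph4d.wa = [2, 2, 2, 149] := rfl

theorem ph4d_wp {s : State} {Q : State → Prop} {i : ℕ} (h : Inp P ns nR o sd s)
    (hp : s.reg 189 = i) (hi : i < P.k) (h5 : P.M * c1 P ≤ s.reg 5)
    (hQ : ∀ s', Frame s s' ph4d.wr ph4d.wa → s.reg 5 ≤ s'.reg 5 + P.M * c1 P →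
      (∀ j < P.M, s'.arr 149 j = P.dxy i j) → Q s') : Wp ρ ph4d Q s := by
  have hf := ph4d.frame ρ s
  suffices H : Wp ρ ph4d (fun s' => s.reg 5 ≤ s'.reg 5 + P.M * c1 P ∧
      ∀ j < P.M, s'.arr 149 j = P.dxy i j) s from hQ _ hf H.1 H.2
  unfold ph4d
  refine Wp.loopF P.M (by simpa using h.r161) h.lM (fun t s' =>
    s.reg 5 ≤ s'.reg 5 + t * c1 P ∧ ∀ j < t, s'.arr 149 j = P.dxy i j)
    ⟨by omega, by simp⟩ ?_ (fun s' _ h' => h')
  intro j hj s1 hf1 I1
  have g := (h.frame hf1 (by decide) (by decide)).setReg 181 j (by decide)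
  have e189 : s1.reg 189 = i := by rw [hf1.reg 189 (by decide)]; exact hp
  have m1 : (j + 1) * c1 P ≤ P.M * c1 P := Nat.mul_le_mul_right _ hj
  have m2 : (j + 1) * c1 P = j * c1 P + (wt P.w P.w + 1) := by unfold c1; ring
  have hi1 := I1.1
  have w1 := (wt_w_le h.b0).trans g.bw
  have hs5 : (s1.setReg 181 j).reg 5 = s1.reg 5 := by simp
  refine Wp.seq (wp_call (px := P.px + i * P.w) (lx := P.w) (py := P.py + j * P.g) (ly := P.w)
    (by decide) (by decide) ?_ ?_ ?_ ?_ (px_le g hi.le) (py_le g hj) w1 (by omega) ?_)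
  · intro s2 hf2
    have := g.frame hf2 (by decide) (by decide)
    simp [this.r140, this.r162, hf2.reg 189 (by decide), e189]
  · intro s2 hf2
    have := g.frame hf2 (by decide) (by decide)
    simp [this.r162]
  · intro s2 hf2
    have := g.frame hf2 (by decide) (by decide)
    simp [this.r142, this.r144, hf2.reg 181 (by decide)]
  · intro s2 hf2
    have := g.frame hf2 (by decide) (by decide)
    simp [this.r162]
  · intro s2 hf2 q5 q13 qd
    have g2 := g.frame hf2 (by decide) (by decide)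
    rw [g.a1, g.a0] at qd
    refine Wp.put j (P.dxy i j) ?_ ?_ ?_ ⟨?_, ?_⟩
    · simp [hf2.reg 181 (by decide)]
    · simp [q13, qd]; rfl
    · exact (dist_le_w P.X P.Y (P.px + i * P.w) (P.py + j * P.g) P.w).trans
        ((wt_w_le h.b0).trans g2.bw)
    · simp only [State.setArr_reg]
      rw [q5, hs5, m2]
      omega
    · intro j' hj'
      simp only [State.setArr_arr]
      split_ifs with hc
      · rw [hc.2]
      · rw [hf2.arr 149 (by decide)]
        exact I1.2 j' (by
          by_contra h5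
          exact hc ⟨trivial, by omega⟩)

/-! ### Phase 4: rank of a grid point -/

/-- Register `187` becomes the rank of the grid point in register `181`. -/
def ph4c : HP := .seq (.set 190 (.get 149 (.reg 181))) (.seq (.set 187 (.lit 0))
  (.loop 188 (.reg 161) (.set 187 (eadd (eadd (.reg 187) (elt (.get 149 (.reg 188)) (.reg 190)))
    (emul (eeq (.get 149 (.reg 188)) (.reg 190)) (elt (.reg 188) (.reg 181)))))))

theorem ph4c_wr : ph4c.wr = [190, 187, 188, 187] := rfl
theorem ph4c_wa : ph4c.wa = [] := rfl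

theorem ph4c_wp {s : State} {Q : State → Prop} {i j : ℕ} (h : Inp P ns nR o sd s)
    (hj : j < P.M) (h181 : s.reg 181 = j) (h149 : ∀ j < P.M, s.arr 149 j = P.dxy i j)
    (hQ : ∀ s', Frame s s' ph4c.wr ph4c.wa → s'.reg 187 = rk P i j → Q s') :
    Wp ρ ph4c Q s := by
  have hf := ph4c.frame ρ s
  suffices H : Wp ρ ph4c (fun s' => s'.reg 187 = rk P i j) s from hQ _ hf H
  unfold ph4c
  have bd : P.dxy i j ≤ s.reg 3 :=
    (dist_le_w P.X P.Y (P.px + i * P.w) (P.py + j * P.g) P.w).trans ((wt_w_le h.b0).trans h.bw)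
  refine Wp.seq (Wp.set (P.dxy i j) ?_ bd ?_)
  · simp [h181, h149 j hj]
  refine Wp.seq (Wp.set 0 (by simp) (Nat.zero_le _) ?_)
  refine Wp.loopF P.M (by simpa using h.r161) (by simpa using h.lM) (fun t s' =>
    s'.reg 187 = cbl P i j t) (by simp [cbl]) ?_ (fun s' _ h' => h'.trans (cbl_M P i j))
  intro t ht s1 hf1 I1
  have e190 : s1.reg 190 = P.dxy i j := by rw [hf1.reg 190 (by decide)]; simp
  have e181 : s1.reg 181 = j := by rw [hf1.reg 181 (by decide)]; simpa using h181
  have e149 : s1.arr 149 t = P.dxy i t := by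
    rw [hf1.arr 149 (by decide)]
    simpa using h149 t ht
  have e3 : s1.reg 3 = s.reg 3 := by rw [hf1.reg 3 (by decide)]; simp
  refine Wp.set (cbl P i j (t + 1)) ?_ ?_ (by simp)
  · rw [cbl_succ]
    simp [I1, e190, e181, e149]
  · have h1 := cbl_le P i j (t + 1)
    have h2 := h.lM.trans h.l34
    simp [e3]
    omega

/-! ### Phase 4: the block values of one sampled window -/

/-- The block value for the near grid point in register `181`. -/
def ph4b : HP := .seq (.set 191 (esub (.reg 181) (emul (.reg 186) (.reg 160)))) (.seq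
  (call 0 1 (eadd (.reg 140) (emul (emul (.reg 185) (.reg 146)) (.reg 162))) (.reg 166)
    (eadd (.reg 142) (emul (.reg 191) (.reg 144))) (.reg 166))
  (.put 144 (eadd (emul (.reg 185) (.reg 161)) (.reg 191)) (.get 2 (.reg 13))))

theorem ph4b_wr : ph4b.wr = 191 :: callW := rfl
theorem ph4b_wa : ph4b.wa = [2, 2, 2, 144] := rfl

theorem ph4b_wp {s : State} {Q : State → Prop} {a j of : ℕ} (h : Inp P ns nR o sd s)
    (ha : a < P.K) (hj : j < P.M) (h181 : s.reg 181 = j) (h185 : s.reg 185 = a)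
    (h186 : s.reg 186 = of) (h5 : c2 P ≤ s.reg 5)
    (hQ : ∀ s', Frame s s' ph4b.wr ph4b.wa → s.reg 5 ≤ s'.reg 5 + c2 P →
      (∀ u, s'.arr 144 u = if u = a * P.M + (j - of * P.v) then
        P.dbl (a * P.b) (j - of * P.v) else s.arr 144 u) → Q s') : Wp ρ ph4b Q s := by
  have hf := ph4b.frame ρ s
  suffices H : Wp ρ ph4b (fun s' => s.reg 5 ≤ s'.reg 5 + c2 P ∧
      (∀ u, s'.arr 144 u = if u = a * P.M + (j - of * P.v) then
        P.dbl (a * P.b) (j - of * P.v) else s.arr 144 u)) s from hQ _ hf H.1 H.2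
  unfold ph4b
  have hM3 := h.lM.trans h.l34
  refine Wp.seq (Wp.set (j - of * P.v) ?_ (by omega) ?_)
  · simp [h181, h186, h.r160]
  have g := h.setReg 191 (j - of * P.v) (by decide)
  have hab : a * P.b ≤ P.k := Nat.mul_le_mul_right _ ha.le
  have hc2 : c2 P = wt (P.b * P.w) (P.b * P.w) + 1 := rfl
  refine Wp.seq (wp_call (px := P.px + a * P.b * P.w) (lx := P.b * P.w)
    (py := P.py + (j - of * P.v) * P.g) (ly := P.b * P.w) (by decide) (by decide) ?_ ?_ ?_ ?_
    (px_le g hab) (py_le g (by omega)) (by simpa using h.bw) ?_ ?_)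
  · intro s2 hf2
    have := g.frame hf2 (by decide) (by decide)
    have e : s2.reg 185 = a := by rw [hf2.reg 185 (by decide)]; simpa using h185
    simp [this.r140, this.r162, this.r146, e]
  · intro s2 hf2
    have := g.frame hf2 (by decide) (by decide)
    simp [this.r166]
  · intro s2 hf2
    have := g.frame hf2 (by decide) (by decide)
    have e : s2.reg 191 = j - of * P.v := by rw [hf2.reg 191 (by decide)]; simp
    simp [this.r142, this.r144, e]
  · intro s2 hf2
    have := g.frame hf2 (by decide) (by decide)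
    simp [this.r166]
  · simp; omega
  · intro s2 hf2 q5 q13 qd
    have g2 := g.frame hf2 (by decide) (by decide)
    rw [g.a1, g.a0] at qd
    have e185 : s2.reg 185 = a := by rw [hf2.reg 185 (by decide)]; simpa using h185
    have e191 : s2.reg 191 = j - of * P.v := by rw [hf2.reg 191 (by decide)]; simp
    refine Wp.put (a * P.M + (j - of * P.v)) (P.dbl (a * P.b) (j - of * P.v)) ?_ ?_ ?_ ⟨?_, ?_⟩
    · simp [e185, e191, g2.r161]
    · simp [q13, qd]; rfl
    · exact (dist_le_w P.X P.Y (P.px + a * P.b * P.w) (P.py + (j - of * P.v) * P.g)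
        (P.b * P.w)).trans g2.bw
    · simp only [State.setArr_reg]
      have e5 : (s.setReg 191 (j - of * P.v)).reg 5 = s.reg 5 := by simp
      rw [q5, e5]
      omega
    · intro u
      simp only [State.setArr_arr, true_and]
      split_ifs
      · rfl
      · rw [hf2.arr 144 (by decide)]; rfl

/-- The value of `B` when the diagonals in `S` are served. -/
noncomputable def bv (P : Pm) (S : ℕ → Prop) (a Q : ℕ) : ℕ :=
  letI := Classical.propDecidable (S Q)
  if S Q then P.dbl (a * P.b) Q else 2 * (P.b * P.w)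

theorem bv_congr {P : Pm} {S S' : ℕ → Prop} {a Q : ℕ} (h : S Q ↔ S' Q) : bv P S a Q = bv P S' a Q := by
  unfold bv
  by_cases h1 : S Q
  · rw [if_pos h1, if_pos (h.mp h1)]
  · rw [if_neg h1, if_neg (fun h2 => h1 (h.mpr h2))]

theorem bv_pos {P : Pm} {S : ℕ → Prop} {a Q : ℕ} (h : S Q) : bv P S a Q = P.dbl (a * P.b) Q := by
  unfold bv; rw [if_pos h]

theorem bv_served (P : Pm) (R : ℕ) (off : ℕ → ℕ) (a Q : ℕ) :
    bv P (served P R off a) a Q = Bof P R off a Q := by
  unfold bv Bof
  by_cases h : served P R off a Q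
  · rw [if_pos h, if_pos h, min_eq_right (dbl_le _ _)]
  · rw [if_neg h, if_neg h]

/-- All near grid points of a sampled window. -/
def ph4s : HP := .loop 181 (.reg 161) (.seq ph4c
  (.ite (elt (.reg 187) (.reg 149)) ph4b (.set 190 (.lit 0))))

theorem ph4s_wr : ph4s.wr = 181 :: ([190, 187, 188, 187] ++ ((191 :: callW) ++ [190])) := rfl
theorem ph4s_wa : ph4s.wa = [2, 2, 2, 144] := rfl

theorem ph4s_wp {s : State} {Q : State → Prop} {a of : ℕ} {S : ℕ → Prop}
    (h : Inp P ns nR o sd s) (ha : a < P.K) (h185 : s.reg 185 = a) (h186 : s.reg 186 = of)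
    (h149 : ∀ j < P.M, s.arr 149 j = P.dxy (a * P.b + of) j) (h5 : P.d * c2 P ≤ s.reg 5)
    (hB : ∀ Q < P.M, s.arr 144 (a * P.M + Q) = bv P S a Q)
    (hQ : ∀ s', Frame s s' ph4s.wr ph4s.wa → s.reg 5 ≤ s'.reg 5 + P.d * c2 P →
      (∀ a' Q, Q < P.M → a' ≠ a → s'.arr 144 (a' * P.M + Q) = s.arr 144 (a' * P.M + Q)) →
      (∀ Q < P.M, s'.arr 144 (a * P.M + Q) = bv P (fun Q => S Q ∨ ∃ j, j < P.M ∧
        rk P (a * P.b + of) j < P.d ∧ j - of * P.v = Q) a Q) → Q s') : Wp ρ ph4s Q s := by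
  have hf := ph4s.frame ρ s
  suffices H : Wp ρ ph4s (fun s' => s.reg 5 ≤ s'.reg 5 + nbl P (a * P.b + of) P.M * c2 P ∧
      (∀ a' Q, Q < P.M → a' ≠ a → s'.arr 144 (a' * P.M + Q) = s.arr 144 (a' * P.M + Q)) ∧
      (∀ Q < P.M, s'.arr 144 (a * P.M + Q) = bv P (fun Q => S Q ∨ ∃ j, j < P.M ∧
        rk P (a * P.b + of) j < P.d ∧ j - of * P.v = Q) a Q)) s by
    refine hQ _ hf ?_ H.2.1 H.2.2
    have h1 := Nat.mul_le_mul_right (c2 P) (nbl_le P (a * P.b + of) (le_refl P.M))
    have h2 := H.1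
    omega
  unfold ph4s
  refine Wp.loopF P.M (by simpa using h.r161) h.lM (fun t s' =>
    s.reg 5 ≤ s'.reg 5 + nbl P (a * P.b + of) t * c2 P ∧
      (∀ a' Q, Q < P.M → a' ≠ a → s'.arr 144 (a' * P.M + Q) = s.arr 144 (a' * P.M + Q)) ∧
      (∀ Q < P.M, s'.arr 144 (a * P.M + Q) = bv P (fun Q => S Q ∨ ∃ j, j < t ∧
        rk P (a * P.b + of) j < P.d ∧ j - of * P.v = Q) a Q))
    ⟨by simp [nbl], fun _ _ _ _ => rfl, fun q hq => by rw [hB q hq]; exact bv_congr (by simp)⟩ ?_
    (fun s' _ h' => h')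
  intro j hj s1 hf1 I1
  have g := (h.frame hf1 (by decide) (by decide)).setReg 181 j (by decide)
  have e185 : s1.reg 185 = a := by rw [hf1.reg 185 (by decide)]; exact h185
  have e186 : s1.reg 186 = of := by rw [hf1.reg 186 (by decide)]; exact h186
  have e149 : ∀ j < P.M, s1.arr 149 j = P.dxy (a * P.b + of) j := by
    intro j hj; rw [hf1.arr 149 (by decide)]; exact h149 j hj
  refine Wp.seq (ph4c_wp g hj (by simp) (by simpa using e149) ?_)
  intro s2 hf2 q187
  have g2 := g.frame hf2 (by decide) (by decide)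
  have e2 : s2.reg 5 = s1.reg 5 := by rw [hf2.reg 5 (by decide)]; simp
  have a2 : s2.arr 144 = s1.arr 144 := by rw [hf2.arr 144 (by decide)]; rfl
  have hn := nbl_succ P (a * P.b + of) j
  have hle := nbl_le P (a * P.b + of) (t := j + 1) (by omega)
  refine Wp.ite (fun h0 => ?_) (fun h0 => ?_)
  · have hr : ¬ rk P (a * P.b + of) j < P.d := by
      intro hlt
      simp [q187, g2.r149, hlt] at h0
    refine Wp.set 0 (by simp) (Nat.zero_le _) ⟨?_, ?_, ?_⟩
    · simp only [State.setReg_reg]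
      rw [if_neg (by decide), e2, hn, if_neg hr, Nat.add_zero]
      exact I1.1
    · intro a' q hq hne
      simp only [State.setReg_arr, a2]
      exact I1.2.1 a' q hq hne
    · intro q hq
      simp only [State.setReg_arr, a2]
      rw [I1.2.2 q hq]
      apply bv_congr
      constructor
      · rintro (h1 | ⟨j', h1, h2, h3⟩)
        · exact Or.inl h1
        · exact Or.inr ⟨j', by omega, h2, h3⟩
      · rintro (h1 | ⟨j', h1, h2, h3⟩)
        · exact Or.inl h1
        · refine Or.inr ⟨j', ?_, h2, h3⟩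
          rcases Nat.lt_succ_iff_lt_or_eq.mp h1 with h4 | h4
          · exact h4
          · subst h4; exact absurd h2 hr
  · have hr : rk P (a * P.b + of) j < P.d := by
      by_contra hlt
      exact h0 (by simp [q187, g2.r149, hlt])
    have k1 : (nbl P (a * P.b + of) j + 1) * c2 P = nbl P (a * P.b + of) j * c2 P + c2 P := by
      ring
    have k2 : (nbl P (a * P.b + of) j + 1) * c2 P ≤ P.d * c2 P :=
      Nat.mul_le_mul_right _ (by rw [hn, if_pos hr] at hle; exact hle)
    have hi1 := I1.1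
    refine ph4b_wp (a := a) (j := j) (of := of) g2 ha hj ?_ ?_ ?_ (by omega) ?_
    · rw [hf2.reg 181 (by decide)]; simp
    · rw [hf2.reg 185 (by decide)]; simpa using e185
    · rw [hf2.reg 186 (by decide)]; simpa using e186
    · intro s3 hf3 q5 q144
      refine ⟨?_, ?_, ?_⟩
      · rw [hn, if_pos hr, k1]; omega
      · intro a' q hq hne
        rw [q144, if_neg, a2]
        · exact I1.2.1 a' q hq hne
        · intro hh
          exact hne (addr_inj hq (by omega) hh).1
      · intro q hq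
        rw [q144]
        by_cases hqq : q = j - of * P.v
        · rw [if_pos (by rw [hqq]), bv_pos, hqq]
          exact Or.inr ⟨j, by omega, hr, hqq.symm⟩
        · rw [if_neg (by
            intro hh
            exact hqq (addr_inj hq (by omega) hh).2), a2, I1.2.2 q hq]
          apply bv_congr
          constructor
          · rintro (h1 | ⟨j', h1, h2, h3⟩)
            · exact Or.inl h1
            · exact Or.inr ⟨j', by omega, h2, h3⟩
          · rintro (h1 | ⟨j', h1, h2, h3⟩)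
            · exact Or.inl h1
            · refine Or.inr ⟨j', ?_, h2, h3⟩
              rcases Nat.lt_succ_iff_lt_or_eq.mp h1 with h4 | h4
              · exact h4
              · subst h4; exact absurd h3.symm hqq

/-! ### Phase 4: all samples of all blocks -/

/-- The samples of one block. -/
def ph4r : HP := .loop 182 (.reg 150) (.seq
  (.set 186 (emod (.get 140 (eadd (eadd (.reg 151) (.reg 148)) (.reg 182))) (.reg 146)))
  (.seq (.set 189 (eadd (emul (.reg 185) (.reg 146)) (.reg 186))) (.seq ph4d ph4s)))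

theorem ph4r_wr : ph4r.wr = 182 :: 186 :: 189 :: ((181 :: callW) ++
    (181 :: ([190, 187, 188, 187] ++ ((191 :: callW) ++ [190])))) := rfl
theorem ph4r_wa : ph4r.wa = [2, 2, 2, 149, 2, 2, 2, 144] := rfl

theorem ph4r_wp {s : State} {Q : State → Prop} {a : ℕ}
    (h : Inp P ns nR o sd s) (ha : a < P.K) (h185 : s.reg 185 = a)
    (h5 : nR * (P.M * c1 P + P.d * c2 P) ≤ s.reg 5)
    (hB : ∀ Q < P.M, s.arr 144 (a * P.M + Q) = 2 * (P.b * P.w))
    (hQ : ∀ s', Frame s s' ph4r.wr ph4r.wa →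
      s.reg 5 ≤ s'.reg 5 + nR * (P.M * c1 P + P.d * c2 P) →
      (∀ a' Q, Q < P.M → a' ≠ a → s'.arr 144 (a' * P.M + Q) = s.arr 144 (a' * P.M + Q)) →
      (∀ Q < P.M, s'.arr 144 (a * P.M + Q) = Bof P nR (offOf P ns o sd) a Q) → Q s') :
    Wp ρ ph4r Q s := by
  have hf := ph4r.frame ρ s
  suffices H : Wp ρ ph4r (fun s' => s.reg 5 ≤ s'.reg 5 + nR * (P.M * c1 P + P.d * c2 P) ∧
      (∀ a' Q, Q < P.M → a' ≠ a → s'.arr 144 (a' * P.M + Q) = s.arr 144 (a' * P.M + Q)) ∧
      (∀ Q < P.M, s'.arr 144 (a * P.M + Q) =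
        bv P (served P nR (offOf P ns o sd) a) a Q)) s by
    refine hQ _ hf H.1 H.2.1 (fun q hq => ?_)
    rw [H.2.2 q hq, bv_served]
  unfold ph4r
  refine Wp.loopF nR (by simpa using h.r150) h.lr (fun t s' =>
    s.reg 5 ≤ s'.reg 5 + t * (P.M * c1 P + P.d * c2 P) ∧
      (∀ a' Q, Q < P.M → a' ≠ a → s'.arr 144 (a' * P.M + Q) = s.arr 144 (a' * P.M + Q)) ∧
      (∀ Q < P.M, s'.arr 144 (a * P.M + Q) = bv P (served P t (offOf P ns o sd) a) a Q))
    ⟨by omega, fun _ _ _ _ => rfl, fun q hq => ?_⟩ ?_ (fun s' _ h' => h')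
  · rw [hB q hq]
    unfold bv
    rw [if_neg]
    rintro ⟨t, ht, -⟩
    omega
  intro t ht s1 hf1 I1
  have g := (h.frame hf1 (by decide) (by decide)).setReg 182 t (by decide)
  have e185 : s1.reg 185 = a := by rw [hf1.reg 185 (by decide)]; exact h185
  have m1 : (t + 1) * (P.M * c1 P + P.d * c2 P) ≤ nR * (P.M * c1 P + P.d * c2 P) :=
    Nat.mul_le_mul_right _ ht
  have m2 : (t + 1) * (P.M * c1 P + P.d * c2 P) = t * (P.M * c1 P + P.d * c2 P) +
    (P.M * c1 P + P.d * c2 P) := by ring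
  have hi1 := I1.1
  set of := offOf P ns o sd t with hof
  have hlt : of < P.b := Nat.mod_lt _ h.b0
  have hik : a * P.b + of < P.k := by
    have : (a + 1) * P.b ≤ P.K * P.b := Nat.mul_le_mul_right _ ha
    have e : (a + 1) * P.b = a * P.b + P.b := by ring
    unfold Pm.k; omega
  refine Wp.seq (Wp.set of ?_ (hlt.le.trans (g.lb.trans g.l34)) ?_)
  · have a1 := g.a140
    have b1 := g.r151
    have c1 := g.r146
    have d1 := g.r148
    simp at a1 b1 c1 d1
    simp [a1, b1, c1, d1, hof, offOf]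
  have g1 := g.setReg 186 of (by decide)
  refine Wp.seq (Wp.set (a * P.b + of) ?_ ((hik.le.trans g1.lk).trans g1.l34) ?_)
  · have b1 := g1.r146
    simp at b1
    simp [b1, e185]
  have g2 := g1.setReg 189 (a * P.b + of) (by decide)
  have e5 : (((s1.setReg 182 t).setReg 186 of).setReg 189 (a * P.b + of)).reg 5 = s1.reg 5 := by
    simp
  refine Wp.seq (ph4d_wp g2 (by simp) hik (by omega) ?_)
  intro s3 hf3 q5 q149
  have g3 := g2.frame hf3 (by decide) (by decide)
  have a3 : s3.arr 144 = s1.arr 144 := by rw [hf3.arr 144 (by decide)]; rfl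
  refine ph4s_wp (a := a) (of := of) (S := served P t (offOf P ns o sd) a) g3 ha ?_ ?_ q149
    (by omega) ?_ ?_
  · rw [hf3.reg 185 (by decide)]; simpa using e185
  · rw [hf3.reg 186 (by decide)]; simp
  · intro q hq
    rw [a3]; exact I1.2.2 q hq
  · intro s4 hf4 k5 kO kB
    refine ⟨by omega, ?_, ?_⟩
    · intro a' q hq hne
      rw [kO a' q hq hne, a3]
      exact I1.2.1 a' q hq hne
    · intro q hq
      rw [kB q hq]
      apply bv_congr
      constructor
      · rintro (⟨t', h1, h2⟩ | ⟨j, h1, h2, h3⟩)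
        · exact ⟨t', by omega, h2⟩
        · exact ⟨t, by omega, j, h1, h2, h3⟩
      · rintro ⟨t', h1, j, h2, h3, h4⟩
        rcases Nat.lt_succ_iff_lt_or_eq.mp h1 with h6 | h6
        · exact Or.inl ⟨t', h6, j, h2, h3, h4⟩
        · subst h6; exact Or.inr ⟨j, h2, h3, h4⟩

/-- All blocks. -/
def ph4 : HP := .loop 185 (.reg 147) ph4r

theorem ph4_wr : ph4.wr = 185 :: 182 :: 186 :: 189 :: ((181 :: callW) ++
    (181 :: ([190, 187, 188, 187] ++ ((191 :: callW) ++ [190])))) := rfl
theorem ph4_wa : ph4.wa = [2, 2, 2, 149, 2, 2, 2, 144] := rfl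

theorem ph4_wp {s : State} {Q : State → Prop} (h : Inp P ns nR o sd s)
    (h5 : P.K * (nR * (P.M * c1 P + P.d * c2 P)) ≤ s.reg 5)
    (hB : ∀ a < P.K, ∀ Q < P.M, s.arr 144 (a * P.M + Q) = 2 * (P.b * P.w))
    (hQ : ∀ s', Frame s s' ph4.wr ph4.wa →
      s.reg 5 ≤ s'.reg 5 + P.K * (nR * (P.M * c1 P + P.d * c2 P)) →
      (∀ a < P.K, ∀ Q < P.M, s'.arr 144 (a * P.M + Q) = Bof P nR (offOf P ns o sd) a Q) →
      Q s') : Wp ρ ph4 Q s := by
  have hf := ph4.frame ρ s
  suffices H : Wp ρ ph4 (fun s' => s.reg 5 ≤ s'.reg 5 + P.K * (nR * (P.M * c1 P + P.d * c2 P)) ∧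
      ∀ a < P.K, ∀ Q < P.M, s'.arr 144 (a * P.M + Q) =
        if a < P.K then Bof P nR (offOf P ns o sd) a Q else 2 * (P.b * P.w)) s by
    refine hQ _ hf H.1 (fun a ha q hq => ?_)
    rw [H.2 a ha q hq, if_pos ha]
  unfold ph4
  refine Wp.loopF P.K (by simpa using h.r147) h.lK (fun t s' =>
    s.reg 5 ≤ s'.reg 5 + t * (nR * (P.M * c1 P + P.d * c2 P)) ∧
      ∀ a < P.K, ∀ Q < P.M, s'.arr 144 (a * P.M + Q) =
        if a < t then Bof P nR (offOf P ns o sd) a Q else 2 * (P.b * P.w))
    ⟨by omega, fun a ha q hq => by simp [hB a ha q hq]⟩ ?_ (fun s' _ h' => h')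
  intro t ht s1 hf1 I1
  have g := (h.frame hf1 (by decide) (by decide)).setReg 185 t (by decide)
  have m1 : (t + 1) * (nR * (P.M * c1 P + P.d * c2 P)) ≤
    P.K * (nR * (P.M * c1 P + P.d * c2 P)) := Nat.mul_le_mul_right _ ht
  have m2 : (t + 1) * (nR * (P.M * c1 P + P.d * c2 P)) =
    t * (nR * (P.M * c1 P + P.d * c2 P)) + nR * (P.M * c1 P + P.d * c2 P) := by ring
  have hi1 := I1.1
  have e5 : (s1.setReg 185 t).reg 5 = s1.reg 5 := by simp
  refine ph4r_wp (a := t) g ht (by simp) (by omega) ?_ ?_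
  · intro q hq
    simp only [State.setReg_arr]
    rw [I1.2 t ht q hq, if_neg (by omega)]
  · intro s2 hf2 k5 kO kB
    refine ⟨by omega, ?_⟩
    intro a ha q hq
    by_cases hat : a = t
    · subst hat
      rw [kB q hq, if_pos (by omega)]
    · rw [kO a q hq hat]
      simp only [State.setReg_arr]
      rw [I1.2 a ha q hq]
      by_cases h2 : a < t
      · rw [if_pos h2, if_pos (by omega)]
      · rw [if_neg h2, if_neg (by omega)]

end Vale.Agent.P315.H933
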