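import Vale.Agent.P315.DP
import Vale.Agent.P315.H817.Fn

/-! The exact dynamic program for the edit distance of segments of two given arrays, in a form
that can be called from the clamped language. -/

set_option autoImplicit false

namespace Vale.Agent.P315.H933

open Vale.Agent.P315 Vale.Agent.P315.H817

/-! ### Postconditions of raw programs -/

/-- `Q` holds after `p`, started in `s`. -/
def Pw (ρ : ℕ → ℕ) (p : Prog) (Q : State → Prop) (s : State) : Prop := Q (p.run ρ s)

variable {ρ : ℕ → ℕ}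

theorem Pw.set {i : ℕ} {e : Expr} {Q : State → Prop} {s : State} (v : ℕ) (hv : e.eval s = v)
    (h : Q (s.setReg i v)) : Pw ρ (.set i e) Q s := by
  subst hv; exact h

theorem Pw.put {j : ℕ} {e e' : Expr} {Q : State → Prop} {s : State} (u v : ℕ)
    (hu : e.eval s = u) (hv : e'.eval s = v) (h : Q (s.setArr j u v)) :
    Pw ρ (.put j e e') Q s := by
  subst hv hu; exact h

theorem Pw.seq {p q : Prog} {Q : State → Prop} {s : State}
    (h : Pw ρ p (fun s' => Pw ρ q Q s') s) : Pw ρ (.seq p q) Q s := h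

theorem Pw.seqF {p q : Prog} {Q : State → Prop} {s : State} (P : State → Prop) (h : Pw ρ p P s)
    (h' : ∀ s', Frame s s' p.wr p.wa → P s' → Pw ρ q Q s') : Pw ρ (.seq p q) Q s :=
  h' _ (p.frame ρ s) h

theorem Pw.loopF {i : ℕ} {e : Expr} {p : Prog} {Q : State → Prop} {s : State} (n : ℕ)
    (hn : e.eval s = n) (I : ℕ → State → Prop) (h0 : I 0 s)
    (hI : ∀ t, t < n → ∀ s', Frame s s' (i :: p.wr) p.wa → I t s' →
      Pw ρ p (I (t + 1)) (s'.setReg i t))
    (hQ : ∀ s', Frame s s' (i :: p.wr) p.wa → I n s' → Q s') : Pw ρ (.loop i e p) Q s := by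
  subst hn
  have key : ∀ m, m ≤ e.eval s →
      I m (s.rounds (fun t s' => p.run ρ (s'.setReg i t)) m) := by
    intro m
    induction m with
    | zero => intro _; exact h0
    | succ m ih =>
      intro hm
      refine hI m (by omega) _ ?_ (ih (by omega))
      apply frame_rounds
      intro t s'
      exact ((frame_setReg s' i t).mono (fun k hk => by simp_all)
        (fun k hk => by simp at hk)).trans
          ((p.frame ρ _).mono (fun k hk => by simp [hk]) (fun k hk => hk))
  exact hQ _ ((Prog.loop i e p).frame ρ s) (key _ le_rfl)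

/-! ### The program -/

/-- One entry. -/
def cCell (u v : ℕ) : Prog :=
  .seq (.set 18 (.get 2 (eadd (.reg 16) (.lit 1))))
  (.seq (.set 19 (.op .eq (.get u (eadd (.reg 10) (.reg 15))) (.get v (eadd (.reg 12) (.reg 16)))))
  (.seq (.put 2 (eadd (.reg 16) (.lit 1)) (emin (emin (eadd (emin (.get 2 (.reg 16)) (.reg 18))
      (.lit 1)) (eadd (.reg 17) (esub (.lit 1) (.reg 19)))) (.reg 14)))
    (.set 17 (.reg 18))))

/-- One row. -/
def cRow (u v : ℕ) : Prog :=
  .seq (.set 17 (.get 2 (.lit 0)))
  (.seq (.put 2 (.lit 0) (emin (eadd (.reg 15) (.lit 1)) (.reg 14)))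
    (.loop 16 (.reg 13) (cCell u v)))

/-- The dynamic program: afterwards array `2` holds at `j` the distance of `U[px, px+lx)` and
`V[py, py+j)`. -/
def cDP (u v : ℕ) : Prog :=
  .seq (.set 14 (eadd (.reg 11) (.reg 13)))
  (.seq (.loop 16 (eadd (.reg 13) (.lit 1)) (.put 2 (.reg 16) (emin (.reg 16) (.reg 14))))
    (.loop 15 (.reg 11) (cRow u v)))

/-- The weight of a call. -/
def wt (lx ly : ℕ) : ℕ := (lx + 1) * (ly + 2)

/-- The weight as an expression. -/
def ewt : Expr := emul (eadd (.reg 11) (.lit 1)) (eadd (.reg 13) (.lit 2))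

/-- The guarded program. -/
def cGuard (u v : ℕ) : Prog := .ite (elt (.reg 9) ewt) (.set 19 (.lit 0)) (cDP u v)

theorem cCell_pw {s : State} {U V : ℕ → ℕ} {u v px lx py ly i t : ℕ}
    (h0 : s.arr u = U) (h1 : s.arr v = V) (h10 : s.reg 10 = px) (h12 : s.reg 12 = py)
    (h14 : s.reg 14 = lx + ly) (h15 : s.reg 15 = i) (h16 : s.reg 16 = t)
    (hi : i < lx) (ht : t < ly)
    (hrow : ∀ j ≤ ly, s.arr 2 j = if j ≤ t then dist U V px (i + 1) py j
      else dist U V px i py j)
    (h17 : s.reg 17 = dist U V px i py t) :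
    Pw ρ (cCell u v) (fun s' => (∀ j ≤ ly, s'.arr 2 j = if j ≤ t + 1 then
      dist U V px (i + 1) py j else dist U V px i py j) ∧
      s'.reg 17 = dist U V px i py (t + 1)) s := by
  have hup : s.arr 2 (t + 1) = dist U V px i py (t + 1) := by
    rw [hrow _ (by omega), if_neg (by omega)]
  have hleft : s.arr 2 t = dist U V px (i + 1) py t := by
    rw [hrow _ (by omega), if_pos le_rfl]
  have hle : dist U V px (i + 1) py (t + 1) ≤ lx + ly :=
    (dist_le U V px (i + 1) py (t + 1)).trans (by omega)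
  unfold cCell
  refine Pw.seq (Pw.set (dist U V px i py (t + 1)) ?_ ?_)
  · simp [h16, hup]
  refine Pw.seq (Pw.set (if U (px + i) = V (py + t) then 1 else 0) ?_ ?_)
  · subst h0 h1
    simp [Expr.eval, Op.eval, h16, h10, h15, h12]
  refine Pw.seq (Pw.put (t + 1) (dist U V px (i + 1) py (t + 1)) ?_ ?_ ?_)
  · simp [h16]
  · simp only [emin_eval, eadd_eval, esub_eval, get_eval, reg_eval, lit_eval, State.setReg_reg,
      State.setReg_arr]
    simp [h16, hleft, h17, h14]
    rw [dist_succ_succ] at hle ⊢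
    split_ifs at hle ⊢ <;> omega
  refine Pw.set (dist U V px i py (t + 1)) (by simp) ⟨?_, by simp⟩
  intro j hj
  by_cases hjj : j = t + 1
  · subst hjj; simp
  · simp only [State.setReg_arr, State.setArr_arr, hjj, and_false, if_false, hrow j hj]
    by_cases h2 : j ≤ t
    · rw [if_pos h2, if_pos (by omega)]
    · rw [if_neg h2, if_neg (by omega)]

theorem cRow_pw {s : State} {U V : ℕ → ℕ} {u v px lx py ly i : ℕ} (hu2 : u ≠ 2) (hv2 : v ≠ 2)
    (h0 : s.arr u = U) (h1 : s.arr v = V) (h10 : s.reg 10 = px) (h12 : s.reg 12 = py)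
    (h13 : s.reg 13 = ly) (h14 : s.reg 14 = lx + ly) (h15 : s.reg 15 = i)
    (hi : i < lx) (hrow : ∀ j ≤ ly, s.arr 2 j = dist U V px i py j) :
    Pw ρ (cRow u v) (fun s' => ∀ j ≤ ly, s'.arr 2 j = dist U V px (i + 1) py j) s := by
  unfold cRow
  refine Pw.seq (Pw.set (dist U V px i py 0) (by simp [hrow 0 (by omega)]) ?_)
  refine Pw.seq (Pw.put 0 (i + 1) (by simp) (by simp [h15, h14]; omega) ?_)
  refine Pw.loopF ly (by simp [h13]) (fun t s' => (∀ j ≤ ly, s'.arr 2 j = if j ≤ t then
      dist U V px (i + 1) py j else dist U V px i py j) ∧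
      s'.reg 17 = dist U V px i py t) ⟨?_, by simp⟩ ?_ ?_
  · intro j hj
    by_cases hjj : j = 0
    · subst hjj; simp [dist_zero_right]
    · simp [hjj, hrow j hj]
  · intro t ht s' hfr hI
    refine cCell_pw ?_ ?_ ?_ ?_ ?_ ?_ (by simp) hi ht (by simpa using hI.1)
      (by simpa using hI.2)
    · simp only [State.setReg_arr]
      rw [hfr.arr u (by simp [cCell, Prog.wa, hu2]), State.setArr_arr_ne _ _ _ hu2]
      exact h0
    · simp only [State.setReg_arr]
      rw [hfr.arr v (by simp [cCell, Prog.wa, hv2]), State.setArr_arr_ne _ _ _ hv2]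
      exact h1
    · rw [State.setReg_reg, if_neg (by decide), hfr.reg 10 (by simp [cCell, Prog.wr])]
      simpa using h10
    · rw [State.setReg_reg, if_neg (by decide), hfr.reg 12 (by simp [cCell, Prog.wr])]
      simpa using h12
    · rw [State.setReg_reg, if_neg (by decide), hfr.reg 14 (by simp [cCell, Prog.wr])]
      simpa using h14
    · rw [State.setReg_reg, if_neg (by decide), hfr.reg 15 (by simp [cCell, Prog.wr])]
      simpa using h15
  · intro s' _ h j hj
    rw [h.1 j hj, if_pos hj]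

theorem cDP_pw {s : State} {U V : ℕ → ℕ} {u v px lx py ly : ℕ} (hu2 : u ≠ 2) (hv2 : v ≠ 2)
    (h0 : s.arr u = U) (h1 : s.arr v = V) (h10 : s.reg 10 = px) (h11 : s.reg 11 = lx)
    (h12 : s.reg 12 = py) (h13 : s.reg 13 = ly) :
    Pw ρ (cDP u v) (fun s' => ∀ j ≤ ly, s'.arr 2 j = dist U V px lx py j) s := by
  unfold cDP
  refine Pw.seq (Pw.set (lx + ly) (by simp [h11, h13]) ?_)
  refine Pw.seqF (fun s' => ∀ j ≤ ly, s'.arr 2 j = dist U V px 0 py j) ?_ ?_
  · refine Pw.loopF (ly + 1) (by simp [h13]) (fun t s' => ∀ j < t, s'.arr 2 j =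
        dist U V px 0 py j) (by simp) ?_ ?_
    · intro t ht s' hfr hI
      have g14 : s'.reg 14 = lx + ly := by rw [hfr.reg 14 (by decide)]; simp
      refine Pw.put t t (by simp) (by simp [g14]; omega) ?_
      intro j hj
      by_cases hjt : j = t
      · subst hjt; simp [dist_zero_left]
      · simp [hjt, hI j (by omega)]
    · intro s' _ h j hj; exact h j (by omega)
  · intro s1 hfr1 hrow
    refine Pw.loopF lx ?_ (fun t s' => ∀ j ≤ ly, s'.arr 2 j = dist U V px t py j) hrow ?_
      (fun s' _ h => h)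
    · simp [hfr1.reg 11 (by decide), h11]
    · intro t ht s' hfr hI
      refine cRow_pw (lx := lx) hu2 hv2 ?_ ?_ ?_ ?_ ?_ ?_ ?_ ht (by simpa using hI)
      · simp only [State.setReg_arr]
        rw [hfr.arr u (by simp [cRow, cCell, Prog.wa, hu2]), hfr1.arr u (by simp [Prog.wa, hu2])]
        exact h0
      · simp only [State.setReg_arr]
        rw [hfr.arr v (by simp [cRow, cCell, Prog.wa, hv2]), hfr1.arr v (by simp [Prog.wa, hv2])]
        exact h1
      · rw [State.setReg_reg, if_neg (by decide), hfr.reg 10 (by simp [cRow, cCell, Prog.wr]),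
          hfr1.reg 10 (by decide)]; simpa using h10
      · rw [State.setReg_reg, if_neg (by decide), hfr.reg 12 (by simp [cRow, cCell, Prog.wr]),
          hfr1.reg 12 (by decide)]; simpa using h12
      · rw [State.setReg_reg, if_neg (by decide), hfr.reg 13 (by simp [cRow, cCell, Prog.wr]),
          hfr1.reg 13 (by decide)]; simpa using h13
      · rw [State.setReg_reg, if_neg (by decide), hfr.reg 14 (by simp [cRow, cCell, Prog.wr]),
          hfr1.reg 14 (by decide)]; simp
      · simp

/-! ### Time and bounds -/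

theorem arr_lt {E : Env} {s : State} (hb : Bdd E s) (k a : ℕ) : s.arr k a < E.N := by
  rcases Nat.lt_or_ge k 2 with hk | hk
  · interval_cases k
    · exact hb.x _
    · exact hb.y _
  · exact lt_of_le_of_lt (hb.arr k hk _) E.R_lt_N

theorem cmp2_seq {E : Env} {s : State} {i u v : ℕ} {e e' : Expr} {q : Prog} {a d : ℕ}
    {Q : State → Prop} (hs : e.small = true) (hs' : e'.small = true)
    (hc : e.cost + e'.cost + 4 ≤ a)
    (h : Spec E (s.setReg i (if s.arr u (e.eval s) = s.arr v (e'.eval s) then 1 else 0)) q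
      (a - (e.cost + e'.cost + 4) + d) Q) :
    Spec E s (.seq (.set i (.op .eq (.get u e) (.get v e'))) q) (a + d) Q := by
  intro hb
  have hv : (if s.arr u (e.eval s) = s.arr v (e'.eval s) then 1 else 0) ≤ 1 := by
    split_ifs <;> omega
  have hR := E.hR
  obtain ⟨h1, h2, h3, h4⟩ := h (hb.setReg i (by omega))
  refine ⟨h1, h2, (Nat.add_le_add (le_of_eq ?_) h3).trans (?_ : e.cost + e'.cost + 4 +
    (a - (e.cost + e'.cost + 4) + d) ≤ a + d), ?_⟩
  · simp only [Prog.time, Expr.cost]
    omega
  · omega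
  · have t1 := Expr.top_lt_small hb e hs
    have t2 := Expr.top_lt_small hb e' hs'
    have t3 := arr_lt hb u (e.eval s)
    have t4 := arr_lt hb v (e'.eval s)
    have t5 := E.R_lt_N
    have t6 : Op.eval .eq (s.arr u (e.eval s)) (s.arr v (e'.eval s)) ≤ 1 := by
      simp only [Op.eval]; split_ifs <;> omega
    exact max_lt (max_lt (max_lt (max_lt t1 t3) (max_lt t2 t4)) (by
      have := E.hR
      exact lt_of_le_of_lt t6 (by omega))) h4

theorem cCell_spec {E : Env} {s : State} (u v : ℕ) :
    Spec E s (cCell u v) (74 + 0) (fun _ => True) := by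
  unfold cCell
  refine Spec.set_seq _ rfl (by decide) rfl (fun hb => hb.arr 2 le_rfl _) ?_
  refine cmp2_seq rfl rfl (by decide) ?_
  refine Spec.put_seq _ _ (by norm_num) rfl rfl (by decide) rfl rfl (fun hb => ?_) ?_
  · simp only [emin_eval]
    exact (min_le_right _ _).trans (hb.reg 14)
  refine Spec.set _ rfl (by decide) rfl (fun hb => hb.reg 18) (fun _ => trivial)

theorem cRow_spec {E : Env} {s : State} (u v : ℕ) {ly : ℕ} (h13 : s.reg 13 = ly) :
    Spec E s (cRow u v) (16 + ly * 76) (fun _ => True) := by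
  unfold cRow
  refine Spec.set_seq _ rfl (by decide) rfl (fun hb => hb.arr 2 le_rfl _) ?_
  refine Spec.put_seq _ _ (by norm_num) rfl rfl (by decide) rfl rfl (fun hb => ?_) ?_
  · simp only [emin_eval]
    exact (min_le_right _ _).trans (hb.reg 14)
  refine Spec.loop ly 74 (fun _ _ => True) rfl (by decide) (by omega) ?_ ?_
    (fun _ => trivial) (fun t ht s' _ _ _ => cCell_spec u v)
  · simp [h13]
  · intro hb
    have := hb.reg 13
    simp [h13] at this; exact this

theorem cDP_spec {E : Env} {s : State} (u v : ℕ) {lx ly : ℕ} (h11 : s.reg 11 = lx)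
    (h13 : s.reg 13 = ly) (hR : lx + ly + 1 ≤ E.R) :
    Spec E s (cDP u v) (10 + ((ly + 1) * 9 + lx * (18 + ly * 76))) (fun _ => True) := by
  unfold cDP
  refine Spec.set_seq (lx + ly) rfl (by decide) (by simp [h11, h13]) (fun _ => by omega) ?_
  refine Spec.seq 4 ((ly + 1) * 9) 2 (lx * (18 + ly * 76)) (fun _ => True) (by decide) le_rfl
    ?_ ?_
  · refine Spec.loop (ly + 1) (7 + 0) (fun _ _ => True) rfl (by decide) le_rfl ?_ ?_
      (fun _ => trivial) ?_
    · simp [h13]
    · intro _; omega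
    · intro t ht s' hb hfr _
      refine Spec.put _ _ (by norm_num) rfl rfl (by decide) rfl rfl (fun hb => ?_)
        (fun _ => trivial)
      simp only [emin_eval]
      exact (min_le_right _ _).trans (hb.reg 14)
  · intro s1 hfr1 _
    refine Spec.loop lx (16 + ly * 76) (fun _ _ => True) rfl (by decide)
      (by apply le_of_eq; ring) ?_ ?_ (fun _ => trivial) ?_
    · simp [hfr1.reg 11 (by decide), h11]
    · intro _; omega
    · intro t ht s' hb hfr _
      refine cRow_spec u v ?_
      rw [State.setReg_reg, if_neg (by decide), hfr.reg 13 (by simp [cRow, cCell, Prog.wr]),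
        hfr1.reg 13 (by decide)]
      simpa using h13

theorem cGuard_bigOk (E : Env) {T : ℕ} (hT : 100 ≤ T) (u v : ℕ) : BigOk E T (cGuard u v) := by
  refine ⟨fun s hb => ?_, ?_, ?_, ?_⟩
  · have hS : Spec E s (cGuard u v) (12 + 100 * s.reg 9) (fun _ => True) := by
      unfold cGuard
      refine Spec.ite rfl (by decide) (fun h => ?_) (fun h => ?_)
      · set lx := s.reg 11 with hlx
        set ly := s.reg 13 with hly
        have h1 : ¬ s.reg 9 < (lx + 1) * (ly + 2) := by
          intro hlt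
          simp [ewt, ← hlx, ← hly, hlt] at h
        have h9 := hb.reg 9
        have h2 : (lx + 1) * (ly + 2) = lx * ly + 2 * lx + ly + 2 := by ring
        have h3 := Nat.zero_le (lx * ly)
        refine (cDP_spec u v hlx.symm hly.symm (by omega)).le ?_
        have h4 : lx * (18 + ly * 76) = 18 * lx + 76 * (lx * ly) := by ring
        rw [h4]
        have : Expr.cost (elt (.reg 9) ewt) = 9 := rfl
        rw [this]
        omega
      · refine (Spec.set (a := 2) (d := 0) 0 rfl (by decide) rfl (fun _ => Nat.zero_le _)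
          (fun _ => trivial)).le ?_
        have : Expr.cost (elt (.reg 9) ewt) = 9 := rfl
        rw [this]; omega
    obtain ⟨_, h2, h3, h4⟩ := hS hb
    refine ⟨h2, h3.trans ?_, h4⟩
    calc 12 + 100 * s.reg 9 ≤ 100 * (s.reg 9 + 1) := by omega
      _ ≤ T * (s.reg 9 + 1) := Nat.mul_le_mul_right _ hT
  all_goals simp [cGuard, cDP, cRow, cCell, Prog.wr]

/-! ### The call -/

/-- The call from the clamped language. -/
def cCall (u v : ℕ) : HP := .big ewt (cGuard u v)

theorem cCall_wr (u v : ℕ) : (cCall u v).wr = [9, 5, 19, 14, 16, 15, 17, 16, 18, 19, 17] := rfl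

theorem cCall_wa (u v : ℕ) : (cCall u v).wa = [2, 2, 2] := rfl

theorem wp_cCall {s : State} {Q : State → Prop} {u v px lx py ly : ℕ} (hu2 : u ≠ 2) (hv2 : v ≠ 2)
    (h10 : s.reg 10 = px) (h11 : s.reg 11 = lx) (h12 : s.reg 12 = py) (h13 : s.reg 13 = ly)
    (h3 : wt lx ly ≤ s.reg 3) (h5 : wt lx ly < s.reg 5)
    (hQ : ∀ s', Frame s s' (cCall u v).wr (cCall u v).wa →
      s'.reg 5 = s.reg 5 - (wt lx ly + 1) →
      (∀ j ≤ ly, s'.arr 2 j = dist (s.arr u) (s.arr v) px lx py j) → Q s') :
    Wp ρ (cCall u v) Q s := by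
  have hw : ewt.eval s = wt lx ly := by simp [ewt, h11, h13, wt]
  have hfr := (cCall u v).frame ρ s
  have hrun : (cCall u v).run ρ s = (cDP u v).run ρ ((s.setReg 9 (wt lx ly)).setReg 5
      (s.reg 5 - (wt lx ly + 1))) := by
    have h1 := run_big ρ ewt (cGuard u v) s
    rw [hw, min_eq_left h3, if_pos h5] at h1
    unfold cCall
    rw [h1]
    simp only [cGuard, Prog.run]
    have h2 : (elt (.reg 9) ewt).eval ((s.setReg 9 (wt lx ly)).setReg 5
        (s.reg 5 - (wt lx ly + 1))) = 0 := by
      simp [ewt, h11, h13, wt]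
    rw [if_pos h2]
  refine hQ _ hfr ?_ ?_
  · rw [hrun, ((cDP u v).frame ρ _).reg 5 (by simp [cDP, cRow, cCell, Prog.wr])]
    simp
  · rw [hrun]
    exact cDP_pw (ρ := ρ) hu2 hv2 rfl rfl (by simpa using h10) (by simpa using h11)
      (by simpa using h12) (by simpa using h13)

end Vale.Agent.P315.H933
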