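import Vale.Agent.P315.H933.Cell
import Vale.Agent.P315.H142.Rows

/-! The base algorithm on the machine: parameters in registers, calls of the exact program. -/

set_option autoImplicit false

namespace Vale.Agent.P315.H933

open Vale.Agent.P315 Vale.Agent.P315.H817 Vale.Agent.P315.H36 Vale.Agent.P315.H142

variable {ρ : ℕ → ℕ}

/-! ### Parameters -/

/-- Registers that must not be changed. -/
def keepR : List ℕ := [3, 4, 140, 142, 144, 146, 147, 148, 149, 150, 151, 160, 161, 162, 163, 164,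
  165, 166]

/-- Arrays that must not be changed. -/
def keepA : List ℕ := [0, 1, 140]

/-- The state holds the parameters `P`, the number `ns` of pivots, the number `nR` of sampled
offsets, the position `o` of the first seed and the seeds `sd`. -/
structure Inp (P : Pm) (ns nR o : ℕ) (sd : ℕ → ℕ) (s : State) : Prop where
  a0 : s.arr 0 = P.X
  a1 : s.arr 1 = P.Y
  a140 : s.arr 140 = sd
  r140 : s.reg 140 = P.px
  r142 : s.reg 142 = P.py
  r144 : s.reg 144 = P.g
  r146 : s.reg 146 = P.b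
  r147 : s.reg 147 = P.K
  r148 : s.reg 148 = ns
  r149 : s.reg 149 = P.d
  r150 : s.reg 150 = nR
  r151 : s.reg 151 = o
  r160 : s.reg 160 = P.v
  r161 : s.reg 161 = P.M
  r162 : s.reg 162 = P.w
  r163 : s.reg 163 = JJ P
  r164 : s.reg 164 = P.b * P.v
  r165 : s.reg 165 = P.k
  r166 : s.reg 166 = P.b * P.w
  bx : P.px + P.k * P.w ≤ s.reg 3
  by' : P.py + JJ P * P.g ≤ s.reg 3
  bw : wt (P.b * P.w) (P.b * P.w) ≤ s.reg 3
  b1 : JJ P * P.g + P.k * P.w ≤ s.reg 3
  lk : P.k ≤ s.reg 4
  lJ : JJ P + 1 ≤ s.reg 4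
  ls : ns ≤ s.reg 4
  lr : nR ≤ s.reg 4
  lb : P.b ≤ s.reg 4
  lK : P.K ≤ s.reg 4
  l34 : s.reg 4 ≤ s.reg 3
  b0 : 0 < P.b
  M0 : 0 < P.M

theorem Inp.frame {P : Pm} {ns nR o : ℕ} {sd : ℕ → ℕ} {s s' : State} {wr wa : List ℕ}
    (h : Inp P ns nR o sd s) (hf : Frame s s' wr wa) (hr : ∀ k ∈ keepR, k ∉ wr)
    (ha : ∀ k ∈ keepA, k ∉ wa) : Inp P ns nR o sd s' := by
  have r : ∀ k ∈ keepR, s'.reg k = s.reg k := fun k hk => hf.reg k (hr k hk)
  have a : ∀ k ∈ keepA, s'.arr k = s.arr k := fun k hk => hf.arr k (ha k hk)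
  have r3 := r 3 (by decide)
  have r4 := r 4 (by decide)
  exact ⟨(a 0 (by decide)).trans h.a0, (a 1 (by decide)).trans h.a1,
    (a 140 (by decide)).trans h.a140,
    (r 140 (by decide)).trans h.r140, (r 142 (by decide)).trans h.r142,
    (r 144 (by decide)).trans h.r144, (r 146 (by decide)).trans h.r146,
    (r 147 (by decide)).trans h.r147,
    (r 148 (by decide)).trans h.r148, (r 149 (by decide)).trans h.r149,
    (r 150 (by decide)).trans h.r150, (r 151 (by decide)).trans h.r151,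
    (r 160 (by decide)).trans h.r160, (r 161 (by decide)).trans h.r161,
    (r 162 (by decide)).trans h.r162, (r 163 (by decide)).trans h.r163,
    (r 164 (by decide)).trans h.r164, (r 165 (by decide)).trans h.r165,
    (r 166 (by decide)).trans h.r166,
    by rw [r3]; exact h.bx, by rw [r3]; exact h.by', by rw [r3]; exact h.bw,
    by rw [r3]; exact h.b1, by rw [r4]; exact h.lk, by rw [r4]; exact h.lJ,
    by rw [r4]; exact h.ls, by rw [r4]; exact h.lr, by rw [r4]; exact h.lb,
    by rw [r4]; exact h.lK, by rw [r3, r4]; exact h.l34, h.b0, h.M0⟩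

theorem Inp.setReg {P : Pm} {ns nR o : ℕ} {sd : ℕ → ℕ} {s : State}
    (h : Inp P ns nR o sd s) (i v : ℕ) (hi : i ∉ keepR) : Inp P ns nR o sd (s.setReg i v) := by
  refine h.frame (frame_setReg s i v) (fun k hk hk' => ?_) (fun k hk hk' => by simp at hk')
  have : k = i := by simpa using hk'
  subst this
  exact hi hk

theorem Inp.lM {P : Pm} {ns nR o : ℕ} {sd : ℕ → ℕ} {s : State} (h : Inp P ns nR o sd s) :
    P.M ≤ s.reg 4 := by have := h.lJ; unfold JJ at this; omega

theorem Inp.row {P : Pm} {ns nR o : ℕ} {sd : ℕ → ℕ} {s : State} (h : Inp P ns nR o sd s)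
    {A B : ℕ → ℕ → ℕ} (hA : ∀ i < P.k, ∀ j < P.M, s.arr 143 (i * P.M + j) = A i j)
    (hB : ∀ a < P.K, ∀ j < P.M, s.arr 144 (a * P.M + j) = B a j) : RowEnv P A B s :=
  ⟨h.r144, h.r146, h.r147, h.r160, h.r161, h.r162, h.r163, h.r164, hA, hB, h.lJ, h.lK, h.lb,
    h.b1, h.lk.trans h.l34⟩

/-! ### Calls -/

/-- A call with given arguments. -/
def call (u v : ℕ) (e0 e1 e2 e3 : Expr) : HP :=
  .seq (.set 10 e0) (.seq (.set 11 e1) (.seq (.set 12 e2) (.seq (.set 13 e3) (cCall u v))))

/-- Registers written by a call. -/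
def callW : List ℕ := [10, 11, 12, 13, 9, 5, 19, 14, 16, 15, 17, 16, 18, 19, 17]

theorem call_wr (u v : ℕ) (e0 e1 e2 e3 : Expr) : (call u v e0 e1 e2 e3).wr = callW := rfl

theorem call_wa (u v : ℕ) (e0 e1 e2 e3 : Expr) : (call u v e0 e1 e2 e3).wa = [2, 2, 2] := rfl

theorem wp_call {s : State} {Q : State → Prop} {u v px lx py ly : ℕ} {e0 e1 e2 e3 : Expr}
    (hu2 : u ≠ 2) (hv2 : v ≠ 2)
    (h0 : ∀ s', Frame s s' [10, 11, 12, 13] [] → e0.eval s' = px)
    (h1 : ∀ s', Frame s s' [10, 11, 12, 13] [] → e1.eval s' = lx)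
    (h2 : ∀ s', Frame s s' [10, 11, 12, 13] [] → e2.eval s' = py)
    (h3 : ∀ s', Frame s s' [10, 11, 12, 13] [] → e3.eval s' = ly)
    (b0 : px ≤ s.reg 3) (b2 : py ≤ s.reg 3)
    (b : wt lx ly ≤ s.reg 3) (b5 : wt lx ly < s.reg 5)
    (hQ : ∀ s', Frame s s' callW [2, 2, 2] → s'.reg 5 = s.reg 5 - (wt lx ly + 1) →
      s'.reg 13 = ly → s'.arr 2 ly = dist (s.arr u) (s.arr v) px lx py ly → Q s') :
    Wp ρ (call u v e0 e1 e2 e3) Q s := by
  have hl : lx ≤ wt lx ly ∧ ly ≤ wt lx ly := by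
    unfold wt
    have e : (lx + 1) * (ly + 2) = lx * ly + 2 * lx + ly + 2 := by ring
    have := Nat.zero_le (lx * ly)
    omega
  have hf := (call u v e0 e1 e2 e3).frame ρ s
  rw [call_wr, call_wa] at hf
  unfold call
  refine Wp.seq (Wp.set px (h0 s (Frame.refl _ _ _)) b0 ?_)
  have f1 : Frame s (s.setReg 10 px) [10, 11, 12, 13] [] :=
    (frame_setReg s 10 px).mono (by simp) (by simp)
  refine Wp.seq (Wp.set lx (h1 _ f1) (by simp; omega) ?_)
  have f2 : Frame s ((s.setReg 10 px).setReg 11 lx) [10, 11, 12, 13] [] :=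
    f1.trans ((frame_setReg _ 11 lx).mono (by simp) (by simp))
  refine Wp.seq (Wp.set py (h2 _ f2) (by simp; omega) ?_)
  have f3 : Frame s (((s.setReg 10 px).setReg 11 lx).setReg 12 py) [10, 11, 12, 13] [] :=
    f2.trans ((frame_setReg _ 12 py).mono (by simp) (by simp))
  refine Wp.seq (Wp.set ly (h3 _ f3) (by simp; omega) ?_)
  set s4 := (((s.setReg 10 px).setReg 11 lx).setReg 12 py).setReg 13 ly with hs4
  have f4 : Frame s s4 [10, 11, 12, 13] [] :=
    f3.trans ((frame_setReg _ 13 ly).mono (by simp) (by simp))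
  have q5 : s4.reg 5 = s.reg 5 := f4.reg 5 (by decide)
  have q3 : s4.reg 3 = s.reg 3 := f4.reg 3 (by decide)
  refine wp_cCall hu2 hv2 (px := px) (lx := lx) (py := py) (ly := ly) (by simp [hs4])
    (by simp [hs4]) (by simp [hs4]) (by simp [hs4]) (by omega) (by omega) ?_
  intro s' hfr h5 hd
  refine hQ s' ?_ (by omega) ?_ ?_
  · refine (f4.mono ?_ ?_).trans (hfr.mono ?_ ?_)
    · intro k hk; simp at hk; simp [callW]; tauto
    · intro k hk; simp at hk
    · intro k hk; rw [cCall_wr] at hk; simp at hk; simp [callW]; tauto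
    · intro k hk; rw [cCall_wa] at hk; exact hk
  · rw [hfr.reg 13 (by rw [cCall_wr]; decide)]; simp [hs4]
  · rw [hd ly le_rfl]; rfl

/-! ### Costs and sizes -/

/-- Cost units of a window call. -/
def c1 (P : Pm) : ℕ := wt P.w P.w + 1
/-- Cost units of a block call. -/
def c2 (P : Pm) : ℕ := wt (P.b * P.w) (P.b * P.w) + 1

theorem wt_mono {a b a' b' : ℕ} (h : a ≤ a') (h' : b ≤ b') : wt a b ≤ wt a' b' :=
  Nat.mul_le_mul (by omega) (by omega)

theorem wt_w_le {P : Pm} (hb : 0 < P.b) : wt P.w P.w ≤ wt (P.b * P.w) (P.b * P.w) := by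
  have : P.w ≤ P.b * P.w := Nat.le_mul_of_pos_left _ hb
  exact wt_mono this this

theorem le_wt (a : ℕ) : 2 * a ≤ wt a a := by
  unfold wt
  have e : (a + 1) * (a + 2) = a * a + 3 * a + 2 := by ring
  have := Nat.zero_le (a * a)
  omega

theorem dist_le_w (X Y : ℕ → ℕ) (a b l : ℕ) : dist X Y a l b l ≤ wt l l :=
  (dist_le X Y a l b l).trans (by have := le_wt l; omega)

theorem addr_inj {M i j i' j' : ℕ} (hj : j < M) (hj' : j' < M) (h : i * M + j = i' * M + j') :
    i = i' ∧ j = j' := by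
  have h1 : (i * M + j) / M = i := by
    rw [Nat.mul_comm, Nat.mul_add_div (by omega), Nat.div_eq_of_lt hj]; simp
  have h2 : (i' * M + j') / M = i' := by
    rw [Nat.mul_comm, Nat.mul_add_div (by omega), Nat.div_eq_of_lt hj']; simp
  have h3 : i = i' := by rw [← h1, ← h2, h]
  subst h3
  exact ⟨rfl, by omega⟩

/-- Number of near grid points. -/
theorem nearS_card_le (P : Pm) (i : ℕ) : (nearS P i).card ≤ P.d := by
  have h : ((nearS P i).image (rk P i)).card = (nearS P i).card := by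
    apply Finset.card_image_of_injOn
    intro a ha b hb hab
    have ha' := Finset.mem_filter.mp (Finset.mem_coe.mp ha)
    have hb' := Finset.mem_filter.mp (Finset.mem_coe.mp hb)
    exact rk_inj (Finset.mem_range.mp ha'.1) (Finset.mem_range.mp hb'.1) hab
  rw [← h]
  have h2 : (nearS P i).image (rk P i) ⊆ Finset.range P.d := by
    intro t ht
    obtain ⟨a, ha, rfl⟩ := Finset.mem_image.mp ht
    exact Finset.mem_range.mpr (Finset.mem_filter.mp ha).2
  simpa using Finset.card_le_card h2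

/-- Number of near grid points below `t`. -/
def nbl (P : Pm) (i t : ℕ) : ℕ := ((Finset.range t).filter (fun j => rk P i j < P.d)).card

theorem nbl_succ (P : Pm) (i t : ℕ) :
    nbl P i (t + 1) = nbl P i t + if rk P i t < P.d then 1 else 0 := by
  unfold nbl
  rw [Finset.range_add_one, Finset.filter_insert]
  split_ifs with h
  · rw [Finset.card_insert_of_notMem (by simp)]
  · rfl

theorem nbl_le (P : Pm) (i : ℕ) {t : ℕ} (ht : t ≤ P.M) : nbl P i t ≤ P.d := by
  refine (Finset.card_le_card ?_).trans (nearS_card_le P i)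
  exact Finset.filter_subset_filter _ (Finset.range_mono ht)

/-- Number of grid points below `t` that come before `j`. -/
def cbl (P : Pm) (i j t : ℕ) : ℕ := ((Finset.range t).filter (fun j' => Bef P i j' j)).card

theorem cbl_succ (P : Pm) (i j t : ℕ) : cbl P i j (t + 1) = cbl P i j t +
    (if P.dxy i t < P.dxy i j then 1 else 0) +
      (if P.dxy i t = P.dxy i j then 1 else 0) * (if t < j then 1 else 0) := by
  unfold cbl
  rw [Finset.range_add_one, Finset.filter_insert]
  by_cases h : Bef P i t j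
  · rw [if_pos h, Finset.card_insert_of_notMem (by simp)]
    rcases h with h | ⟨h, h'⟩
    · rw [if_pos h, if_neg (by omega)]; simp
    · rw [if_neg (by omega), if_pos h, if_pos h']
  · rw [if_neg h]
    unfold Bef at h
    rw [if_neg (by omega)]
    by_cases h1 : P.dxy i t = P.dxy i j
    · have : ¬ t < j := by omega
      simp [this]
    · rw [if_neg h1]; simp

theorem cbl_le (P : Pm) (i j t : ℕ) : cbl P i j t ≤ t := by
  unfold cbl
  refine (Finset.card_filter_le _ _).trans ?_
  simp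

theorem cbl_M (P : Pm) (i j : ℕ) : cbl P i j P.M = rk P i j := rfl

end Vale.Agent.P315.H933
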