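import Vale.Agent.P315.H36.VisRun
import Vale.Agent.P315.H486.Main2

/-! The START phase as the program `Pre` of the main program of the multiplicative version:
parameters from the registers `80`–`96`, table of the visible costs in array `150`. -/

set_option autoImplicit false

namespace Vale.Agent.P315.H933

open Vale.Agent.P315 Vale.Agent.P315.H817 Vale.Agent.P315.H36 Vale.Agent.P315.H142
  Vale.Agent.P315.H486

/-! ### Dependence on the seeds -/

theorem Aof_congr {P : Pm} {hub hub' : ℕ → ℕ} {i j : ℕ} {s : ℕ}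
    (h : ∀ t < s, hub t = hub' t) : Aof P hub i j s = Aof P hub' i j s := by
  induction s with
  | zero => rfl
  | succ s ih =>
    simp only [Aof]
    rw [ih (fun t ht => h t (by omega)), h s (by omega)]

theorem served_congr {P : Pm} {off off' : ℕ → ℕ} {R a Q : ℕ}
    (h : ∀ t < R, off t = off' t) : served P R off a Q ↔ served P R off' a Q := by
  constructor
  · rintro ⟨t, ht, j, h1, h2, h3⟩
    rw [h t ht] at h2 h3
    exact ⟨t, ht, j, h1, h2, h3⟩
  · rintro ⟨t, ht, j, h1, h2, h3⟩
    rw [← h t ht] at h2 h3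
    exact ⟨t, ht, j, h1, h2, h3⟩

theorem Bof_congr {P : Pm} {off off' : ℕ → ℕ} {R a Q : ℕ}
    (h : ∀ t < R, off t = off' t) : Bof P R off a Q = Bof P R off' a Q := by
  unfold Bof
  by_cases h1 : served P R off a Q
  · rw [if_pos h1, if_pos ((served_congr h).mp h1)]
  · rw [if_neg h1, if_neg (fun h2 => h1 ((served_congr h).mpr h2))]

theorem startVal_congr {P : Pm} {hub hub' off off' : ℕ → ℕ} {s R : ℕ}
    (h : ∀ t < s, hub t = hub' t) (h' : ∀ t < R, off t = off' t) :
    startVal P s hub R off = startVal P s hub' R off' := by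
  unfold startVal
  have e1 : (fun i j => Aof P hub i j s) = fun i j => Aof P hub' i j s := by
    funext i j; exact Aof_congr h
  have e2 : Bof P R off = Bof P R off' := by
    funext a q; exact Bof_congr h'
  rw [e1, e2]

theorem entry_congr {T : Tb} {q : SP} {X Y hub hub' off off' : ℕ → ℕ} {i r e : ℕ}
    (h : ∀ t < q.s, hub t = hub' t) (h' : ∀ t < q.R, off t = off' t) :
    T.entry q X Y hub off i r e = T.entry q X Y hub' off' i r e := by
  unfold Tb.entry SP.visE
  rw [startVal_congr h h']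

/-! ### The table as a list -/

/-- The entry of the flat table. -/
noncomputable def visAt (T : Tb) (q : SP) (X Y sd : ℕ → ℕ) (j : ℕ) : ℕ :=
  T.entry q X Y (fun t => sd t % q.M) (fun t => sd (q.s + t) % q.b) (j / T.nE / T.nS)
    (j / T.nE % T.nS) (j % T.nE)

/-- The flat table of the visible costs. -/
noncomputable def visList (T : Tb) (q : SP) (X Y sd : ℕ → ℕ) : List ℕ :=
  (List.range (T.Kr * T.nS * T.nE)).map (visAt T q X Y sd)

theorem length_visList (T : Tb) (q : SP) (X Y sd : ℕ → ℕ) :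
    (visList T q X Y sd).length = T.Kr * T.nS * T.nE := by simp [visList]

theorem visList_getD {T : Tb} {q : SP} {X Y sd : ℕ → ℕ} {j : ℕ} (hj : j < T.Kr * T.nS * T.nE) :
    (visList T q X Y sd).getD j 0 = visAt T q X Y sd j := by
  unfold visList
  rw [List.getD_eq_getElem?_getD, List.getElem?_map, List.getElem?_range hj]
  rfl

theorem visAt_addr {T : Tb} {q : SP} {X Y sd : ℕ → ℕ} {i r e : ℕ} (hr : r < T.nS)
    (he : e < T.nE) : visAt T q X Y sd ((i * T.nS + r) * T.nE + e) =
      T.entry q X Y (fun t => sd t % q.M) (fun t => sd (q.s + t) % q.b) i r e := by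
  have h1 : ((i * T.nS + r) * T.nE + e) / T.nE = i * T.nS + r := by
    rw [Nat.mul_comm, Nat.mul_add_div (by omega), Nat.div_eq_of_lt he]; simp
  have h2 : ((i * T.nS + r) * T.nE + e) % T.nE = e := by
    rw [Nat.mul_comm, Nat.mul_add_mod, Nat.mod_eq_of_lt he]
  have h3 : (i * T.nS + r) / T.nS = i := by
    rw [Nat.mul_comm, Nat.mul_add_div (by omega), Nat.div_eq_of_lt hr]; simp
  have h4 : (i * T.nS + r) % T.nS = r := by
    rw [Nat.mul_comm, Nat.mul_add_mod, Nat.mod_eq_of_lt hr]
  unfold visAt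
  rw [h1, h2, h3, h4]

theorem visAt_congr {T : Tb} {q : SP} {X Y sd sd' : ℕ → ℕ} {j : ℕ}
    (h : ∀ t < q.s + q.R, sd t = sd' t) : visAt T q X Y sd j = visAt T q X Y sd' j := by
  unfold visAt
  refine entry_congr (fun t ht => ?_) (fun t ht => ?_)
  · rw [h t (by omega)]
  · rw [h (q.s + t) (by omega)]

theorem visList_congr {T : Tb} {q : SP} {X Y sd sd' : ℕ → ℕ}
    (h : ∀ t < q.s + q.R, sd t = sd' t) : visList T q X Y sd = visList T q X Y sd' := by
  unfold visList
  exact List.map_congr_left fun j _ => visAt_congr h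

/-! ### The program -/

/-- Copies of parameters. -/
def copyP : List (ℕ × ℕ) → Prog → Prog
  | [], p => p
  | a :: L, p => .seq (.set a.1 (.reg a.2)) (copyP L p)

/-- The places of the parameters. -/
def preL : List (ℕ × ℕ) := [(144, 80), (146, 81), (147, 82), (148, 83), (149, 84), (150, 85),
  (160, 86), (161, 87), (200, 88), (201, 89), (202, 90), (203, 91), (204, 92), (205, 93),
  (3, 94), (4, 95), (5, 96)]

/-- The START phase with its parameters. -/
def preProg : Prog := .seq (.set 151 (.lit 0)) (copyP preL phaseHP.comp)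

theorem copyP_spec {E : Env} {p : Prog} {c : ℕ} {Q : State → Prop} :
    ∀ (L : List (ℕ × ℕ)) (s : State), (∀ a ∈ L, ∀ b ∈ L, a.1 ≠ b.2) → (L.map Prod.fst).Nodup →
      (∀ s', Frame s s' (L.map Prod.fst) [] → (∀ a ∈ L, s'.reg a.1 = s.reg a.2) →
        Spec E s' p c Q) → Spec E s (copyP L p) (2 * L.length + c) Q := by
  intro L
  induction L with
  | nil =>
    intro s _ _ h
    simpa [copyP] using h s (Frame.refl _ _ _) (by simp)
  | cons a L ih =>
    intro s h1 h2 h
    rw [List.map_cons, List.nodup_cons] at h2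
    have e : 2 * (a :: L).length + c = 2 + (2 * L.length + c) := by
      rw [List.length_cons]; ring
    rw [e]
    unfold copyP
    refine Spec.set_seq (s.reg a.2) rfl (by simp [Expr.cost]) rfl (fun hb => hb.reg _) ?_
    refine (ih (s.setReg a.1 (s.reg a.2)) (fun b hb b' hb' => h1 b (by simp [hb]) b' (by simp [hb']))
      h2.2 ?_).le (by simp [Expr.cost])
    intro s' hf hs'
    refine h s' ?_ ?_
    · refine ((frame_setReg s a.1 (s.reg a.2)).mono (by simp) (by simp)).trans
        (hf.mono (fun k hk => ?_) (by simp))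
      rw [List.map_cons]
      exact List.mem_cons_of_mem _ hk
    · intro b hb
      rcases List.mem_cons.mp hb with rfl | hb
      · rw [hf.reg b.1 h2.1]; simp
      · rw [hs' b hb]
        have : b.2 ≠ a.1 := fun hh => h1 a (by simp) b (by simp [hb]) hh.symm
        simp [this]

/-- The parameters of the START phase. -/
structure PrePar (par : ℕ → H486.Par → ℕ) (regs : List ℕ) (T : Tb) (q : SP) (p : H486.Par) :
    Prop where
  mem : ∀ i ∈ preL.map Prod.snd, i ∈ regs
  ok : T.Ok q
  p80 : par 80 p = q.g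
  p81 : par 81 p = q.b
  p82 : par 82 p = q.K
  p83 : par 83 p = q.s
  p84 : par 84 p = q.d
  p85 : par 85 p = q.R
  p86 : par 86 p = q.v
  p87 : par 87 p = q.M
  p88 : par 88 p = T.Kr
  p89 : par 89 p = T.nS
  p90 : par 90 p = T.nE
  p91 : par 91 p = T.mu
  p92 : par 92 p = T.l2
  p93 : par 93 p = T.c0
  b1 : T.Kr * (2 * T.l2) + 2 ^ (q.e + 3) ≤ par 94 p
  b2 : (2 ^ q.lc + 1) * (2 ^ q.lc + 2) ≤ par 94 p
  b3 : q.loops ≤ par 95 p
  b4 : T.Kr ≤ par 95 p
  b5 : T.nS ≤ par 95 p
  b6 : T.nE ≤ par 95 p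
  b7 : par 95 p ≤ par 94 p
  b8 : T.Kr * T.nS * q.tot ≤ par 96 p

/-- **The START phase in the form of the main program.** -/
theorem pre_spec {par : ℕ → H486.Par → ℕ} {regs : List ℕ} {T : Tb} {q : SP} {p : H486.Par}
    {x y : List ℕ} {E : Env} {σ : State} {sd : ℕ → ℕ} (hS : 130 ≤ E.S)
    (hp : p = (x.length, y.length)) (h : PrePar par regs T q p) (hb : Base par regs x y σ)
    (hsd : ∀ i < q.s + q.R, σ.arr 140 i = sd i) :
    Spec E σ preProg (36 + (phaseHP.sz * (par 95 p + 2) ^ 6 + T.Kr * T.nS * q.tot * 100))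
      (fun σ' => ∀ j < T.Kr * T.nS * T.nE, σ'.arr 150 j =
        (visList T q (fun i => x.getD i 0) (fun i => y.getD i 0) sd).getD j 0) := by
  unfold preProg
  have e36 : 36 + (phaseHP.sz * (par 95 p + 2) ^ 6 + T.Kr * T.nS * q.tot * 100) =
    2 + (2 * preL.length + (phaseHP.sz * (par 95 p + 2) ^ 6 + T.Kr * T.nS * q.tot * 100)) := by
    have : preL.length = 17 := rfl
    rw [this]; ring
  rw [e36]
  refine Spec.set_seq 0 rfl (by decide) rfl (fun _ => Nat.zero_le _) ?_
  have hreg : ∀ i ∈ preL.map Prod.snd, (σ.setReg 151 0).reg i = par i p := by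
    intro i hi
    have h1 := hb.par i (h.mem i hi)
    rw [← hp] at h1
    rw [State.setReg_reg, if_neg, h1]
    rintro rfl
    revert hi
    decide
  refine (copyP_spec (c := phaseHP.sz * (par 95 p + 2) ^ 6 + T.Kr * T.nS * q.tot * 100) preL _
    (by decide) (by decide) ?_).le (by simp [Expr.cost])
  intro s' hf hs'
  have k : ∀ a ∈ preL, s'.reg a.1 = par a.2 p := fun a ha => by
    rw [hs' a ha, hreg a.2 (List.mem_map_of_mem ha)]
  have k151 : s'.reg 151 = 0 := by rw [hf.reg 151 (by decide)]; simp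
  have k144 := k (144, 80) (by decide)
  have k146 := k (146, 81) (by decide)
  have k147 := k (147, 82) (by decide)
  have k148 := k (148, 83) (by decide)
  have k149 := k (149, 84) (by decide)
  have k150 := k (150, 85) (by decide)
  have k160 := k (160, 86) (by decide)
  have k161 := k (161, 87) (by decide)
  have k200 := k (200, 88) (by decide)
  have k201 := k (201, 89) (by decide)
  have k202 := k (202, 90) (by decide)
  have k203 := k (203, 91) (by decide)
  have k204 := k (204, 92) (by decide)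
  have k205 := k (205, 93) (by decide)
  have k3 := k (3, 94) (by decide)
  have k4 := k (4, 95) (by decide)
  have k5 := k (5, 96) (by decide)
  simp only at k144 k146 k147 k148 k149 k150 k160 k161 k200 k201 k202 k203 k204 k205 k3 k4 k5
  have hPh : PhIn T q (fun i => x.getD i 0) (fun i => y.getD i 0) 0 (σ.arr 140) s' := by
    refine ⟨⟨?_, ?_, ?_, ?_, ?_, ?_, ?_, ?_, ?_, k151, ?_, ?_, ?_, ?_, ?_, ?_⟩, ?_, ?_, ?_, ?_,
      ?_, ?_, ?_, ?_, ?_⟩
    · rw [hf.arr 0 (by simp)]; exact hb.ax
    · rw [hf.arr 1 (by simp)]; exact hb.ay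
    · rw [hf.arr 140 (by simp)]; rfl
    · rw [k144, h.p80]
    · rw [k146, h.p81]
    · rw [k147, h.p82]
    · rw [k148, h.p83]
    · rw [k149, h.p84]
    · rw [k150, h.p85]
    · rw [k160, h.p86]
    · rw [k161, h.p87]
    · rw [k3]; exact h.b1
    · rw [k3]; exact h.b2
    · rw [k4]; exact h.b3
    · rw [k3, k4]; exact h.b7
    · rw [k200, h.p88]
    · rw [k201, h.p89]
    · rw [k202, h.p90]
    · rw [k203, h.p91]
    · rw [k204, h.p92]
    · rw [k205, h.p93]
    · rw [k4]; exact h.b4
    · rw [k4]; exact h.b5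
    · rw [k4]; exact h.b6
  have hph := phase_spec (E := E) hS h.ok hPh (by rw [k5]; exact h.b8)
  rw [k4] at hph
  refine hph.mono le_rfl ?_
  rintro s'' ⟨-, hT⟩ j hj
  rw [visList_getD hj]
  have hnE : 0 < T.nE := by
    rcases Nat.eq_zero_or_pos T.nE with h0 | h0
    · rw [h0] at hj; simp at hj
    · exact h0
  have hnS : 0 < T.nS := by
    rcases Nat.eq_zero_or_pos T.nS with h0 | h0
    · rw [h0] at hj; simp at hj
    · exact h0
  set e := j % T.nE with he
  set r := j / T.nE % T.nS with hr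
  set i := j / T.nE / T.nS with hi
  have he' : e < T.nE := Nat.mod_lt _ hnE
  have hr' : r < T.nS := Nat.mod_lt _ hnS
  have e1 : i * T.nS + r = j / T.nE := Nat.div_add_mod' _ _
  have e2 : (i * T.nS + r) * T.nE + e = j := by rw [e1]; exact Nat.div_add_mod' _ _
  have hi' : i < T.Kr := by
    rw [hi, Nat.div_div_eq_div_mul, Nat.div_lt_iff_lt_mul (Nat.mul_pos hnE hnS)]
    calc j < T.Kr * T.nS * T.nE := hj
      _ = T.Kr * (T.nE * T.nS) := by ring
  have h1 := hT i hi' r hr' e he'
  rw [e2] at h1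
  rw [h1, ← e2, visAt_addr hr' he']
  refine entry_congr (fun t ht => ?_) (fun t ht => ?_)
  · show σ.arr 140 (0 + t) % q.M = sd t % q.M
    rw [Nat.zero_add, hsd t (by omega)]
  · show σ.arr 140 (0 + q.s + t) % q.b = sd (q.s + t) % q.b
    rw [Nat.zero_add, hsd (q.s + t) (by omega)]

/-- The registers written by the START phase. -/
def preW : List ℕ := [3, 4, 5, 9, 10, 11, 12, 13, 14, 15, 16, 17, 18, 19, 140, 142, 144, 146, 147,
  148, 149, 150, 151, 160, 161, 162, 163, 164, 165, 166, 170, 171, 172, 180, 181, 182, 183, 184,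
  185, 186, 187, 188, 189, 190, 191, 200, 201, 202, 203, 204, 205, 206, 207, 208, 209, 210, 211,
  212, 213, 214, 215, 216, 217, 218, 219]

theorem comp_wr (p : HP) : ∀ k ∈ p.comp.wr, k ∈ p.wr := by
  induction p with
  | set i e => intro k hk; simpa [HP.comp, Prog.wr, HP.wr] using hk
  | put j e e' => intro k hk; simp [HP.comp, Prog.wr] at hk
  | rnd i e => intro k hk; simp [HP.comp, Prog.wr, HP.wr] at hk ⊢; tauto
  | seq p q ihp ihq =>
    intro k hk
    simp only [HP.comp, Prog.wr, HP.wr, List.mem_append] at hk ⊢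
    exact hk.imp (ihp k) (ihq k)
  | ite e p q ihp ihq =>
    intro k hk
    simp only [HP.comp, Prog.wr, HP.wr, List.mem_append] at hk ⊢
    exact hk.imp (ihp k) (ihq k)
  | loop i e p ih =>
    intro k hk
    simp only [HP.comp, Prog.wr, HP.wr, List.mem_cons] at hk ⊢
    exact hk.imp id (ih k)
  | big w q => intro k hk; simp [HP.comp, Prog.wr, HP.wr] at hk ⊢; tauto

theorem comp_wa (p : HP) : ∀ k ∈ p.comp.wa, k ∈ p.wa := by
  induction p with
  | set i e => intro k hk; simp [HP.comp, Prog.wa] at hk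
  | put j e e' => intro k hk; simpa [HP.comp, Prog.wa, HP.wa] using hk
  | rnd i e => intro k hk; simp [HP.comp, Prog.wa] at hk
  | seq p q ihp ihq =>
    intro k hk
    simp only [HP.comp, Prog.wa, HP.wa, List.mem_append] at hk ⊢
    exact hk.imp (ihp k) (ihq k)
  | ite e p q ihp ihq =>
    intro k hk
    simp only [HP.comp, Prog.wa, HP.wa, List.mem_append] at hk ⊢
    exact hk.imp (ihp k) (ihq k)
  | loop i e p ih =>
    intro k hk
    simp only [HP.comp, Prog.wa, HP.wa] at hk ⊢
    exact ih k hk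
  | big w q => intro k hk; simpa [HP.comp, Prog.wa, HP.wa] using hk

theorem copyP_wr (L : List (ℕ × ℕ)) (p : Prog) :
    (copyP L p).wr = L.map Prod.fst ++ p.wr := by
  induction L with
  | nil => rfl
  | cons a L ih => simp [copyP, Prog.wr, ih]

theorem copyP_wa (L : List (ℕ × ℕ)) (p : Prog) : (copyP L p).wa = p.wa := by
  induction L with
  | nil => rfl
  | cons a L ih => simp [copyP, Prog.wa, ih]

theorem phase_wr : ∀ k ∈ phaseHP.wr, k ∈ phR := by decide

theorem phase_wa : ∀ k ∈ phaseHP.wa, k ∈ phA := by decide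

theorem phR_sub : ∀ k ∈ phR, k ∈ preW := by decide

theorem phA_sub : ∀ k ∈ phA, k ∈ [2, 143, 144, 145, 146, 147, 148, 149, 150] := by decide

theorem pre_wr : ∀ k ∈ preProg.wr, k ∈ preW := by
  intro k hk
  have e : preProg.wr = 151 :: (preL.map Prod.fst ++ phaseHP.comp.wr) := by
    show [151] ++ (copyP preL phaseHP.comp).wr = _
    rw [copyP_wr]; rfl
  rw [e, List.mem_cons, List.mem_append] at hk
  rcases hk with rfl | hk | hk
  · decide
  · exact (show ∀ k ∈ preL.map Prod.fst, k ∈ preW by decide) k hk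
  · exact phR_sub k (phase_wr k (comp_wr _ k hk))

theorem pre_wa : ∀ k ∈ preProg.wa, k ∈ [2, 143, 144, 145, 146, 147, 148, 149, 150] := by
  intro k hk
  have e : preProg.wa = phaseHP.comp.wa := by
    show [] ++ (copyP preL phaseHP.comp).wa = _
    rw [copyP_wa]; rfl
  rw [e] at hk
  exact phA_sub k (phase_wa k (comp_wa _ k hk))

/-- The START phase keeps the inputs and the parameters. -/
theorem pre_quiet {regs : List ℕ} (h : ∀ i ∈ regs, i ∉ preW) : Quiet regs preProg :=
  ⟨fun hk => absurd (pre_wr 0 hk) (by decide), fun hk => absurd (pre_wr 1 hk) (by decide),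
    fun i hi hk => h i hi (pre_wr i hk), fun hk => absurd (pre_wa 0 hk) (by decide),
    fun hk => absurd (pre_wa 1 hk) (by decide), fun hk => absurd (pre_wa 3 hk) (by decide)⟩

end Vale.Agent.P315.H933
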