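import Vale.Agent.P315.H933.Inp

/-! The window table of the base algorithm on the machine. -/

set_option autoImplicit false

namespace Vale.Agent.P315.H933

open Vale.Agent.P315 Vale.Agent.P315.H817 Vale.Agent.P315.H36 Vale.Agent.P315.H142

variable {ρ : ℕ → ℕ} {P : Pm} {ns nR o : ℕ} {sd : ℕ → ℕ}

/-- The pivots. -/
def hubOf (P : Pm) (o : ℕ) (sd : ℕ → ℕ) (t : ℕ) : ℕ := sd (o + t) % P.M

/-- The sampled offsets. -/
def offOf (P : Pm) (ns o : ℕ) (sd : ℕ → ℕ) (t : ℕ) : ℕ := sd (o + ns + t) % P.b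

/-! ### Phase 1: trivial values of `A` -/

def ph1 : HP := .loop 180 (.reg 165) (.loop 181 (.reg 161)
  (.put 143 (eadd (emul (.reg 180) (.reg 161)) (.reg 181)) (emul (.lit 2) (.reg 162))))

theorem ph1_wr : ph1.wr = [180, 181] := rfl
theorem ph1_wa : ph1.wa = [143] := rfl

theorem ph1_wp {s : State} {Q : State → Prop} (h : Inp P ns nR o sd s)
    (hQ : ∀ s', Frame s s' ph1.wr ph1.wa → (∀ i < P.k, ∀ j < P.M,
      s'.arr 143 (i * P.M + j) = 2 * P.w) → Q s') : Wp ρ ph1 Q s := by
  have hf := ph1.frame ρ s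
  suffices H : Wp ρ ph1 (fun s' => ∀ i < P.k, ∀ j < P.M,
      s'.arr 143 (i * P.M + j) = 2 * P.w) s from hQ _ hf H
  unfold ph1
  refine Wp.loopF P.k (by simp [h.r165]) h.lk (fun t s' => ∀ i < t, ∀ j < P.M,
    s'.arr 143 (i * P.M + j) = 2 * P.w) (by simp) ?_ (fun s' _ h' => h')
  intro i hi s1 hf1 I1
  have g := (h.frame hf1 (by decide) (by decide)).setReg 180 i (by decide)
  refine Wp.loopF P.M (by simpa using g.r161) g.lM (fun t s' =>
    (∀ i' < i, ∀ j < P.M, s'.arr 143 (i' * P.M + j) = 2 * P.w) ∧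
      ∀ j < t, s'.arr 143 (i * P.M + j) = 2 * P.w) ⟨by simpa using I1, by simp⟩ ?_ ?_
  · intro j hj s2 hf2 I2
    have g2 := (g.frame hf2 (by decide) (by decide)).setReg 181 j (by decide)
    have e180 : s2.reg 180 = i := by rw [hf2.reg 180 (by decide)]; simp
    refine Wp.put (i * P.M + j) (2 * P.w) ?_ ?_ ?_ ⟨?_, ?_⟩
    · have := g2.r161; simp at this; simp [e180, this]
    · have := g2.r162; simp at this; simp [this]
    · exact (le_wt P.w).trans ((wt_w_le h.b0).trans g2.bw)
    · intro i' hi' j' hj'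
      simp only [State.setArr_arr, State.setReg_arr]
      split_ifs with hc
      · rfl
      · exact I2.1 i' hi' j' hj'
    · intro j' hj'
      simp only [State.setArr_arr, State.setReg_arr]
      split_ifs with hc
      · rfl
      · exact I2.2 j' (by
          by_contra h5
          have : j' = j := by omega
          subst this
          exact hc ⟨trivial, rfl⟩)
  · intro s2 _ I2 i' hi' j' hj'
    rcases Nat.lt_succ_iff_lt_or_eq.mp hi' with h3 | h3
    · exact I2.1 i' h3 j' hj'
    · subst h3; exact I2.2 j' hj'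

/-! ### Phase 2: pivots -/

/-- Distances of the pivot window to all `y`-windows. -/
def ph2y : HP := .loop 181 (.reg 161) (.seq
  (call 1 1 (eadd (.reg 142) (emul (.reg 183) (.reg 144))) (.reg 162)
    (eadd (.reg 142) (emul (.reg 181) (.reg 144))) (.reg 162))
  (.put 148 (.reg 181) (.get 2 (.reg 13))))

theorem ph2y_wr : ph2y.wr = 181 :: callW := rfl
theorem ph2y_wa : ph2y.wa = [2, 2, 2, 148] := rfl

theorem py_le {s : State} (g : Inp P ns nR o sd s) {t : ℕ} (ht : t < P.M) :
    P.py + t * P.g ≤ s.reg 3 := by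
  have hy := g.by'
  have : t * P.g ≤ JJ P * P.g := Nat.mul_le_mul_right _ (by unfold JJ; omega)
  omega

theorem px_le {s : State} (g : Inp P ns nR o sd s) {t : ℕ} (ht : t ≤ P.k) :
    P.px + t * P.w ≤ s.reg 3 := by
  have hy := g.bx
  have : t * P.w ≤ P.k * P.w := Nat.mul_le_mul_right _ ht
  omega

theorem ph2y_wp {s : State} {Q : State → Prop} {p : ℕ} (h : Inp P ns nR o sd s)
    (hp : s.reg 183 = p) (hpM : p < P.M) (h5 : P.M * c1 P ≤ s.reg 5)
    (hQ : ∀ s', Frame s s' ph2y.wr ph2y.wa → s.reg 5 ≤ s'.reg 5 + P.M * c1 P →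
      (∀ j < P.M, s'.arr 148 j = P.dyy p j) → Q s') : Wp ρ ph2y Q s := by
  have hf := ph2y.frame ρ s
  suffices H : Wp ρ ph2y (fun s' => s.reg 5 ≤ s'.reg 5 + P.M * c1 P ∧
      ∀ j < P.M, s'.arr 148 j = P.dyy p j) s from hQ _ hf H.1 H.2
  unfold ph2y
  refine Wp.loopF P.M (by simpa using h.r161) h.lM (fun t s' =>
    s.reg 5 ≤ s'.reg 5 + t * c1 P ∧ ∀ j < t, s'.arr 148 j = P.dyy p j)
    ⟨by omega, by simp⟩ ?_ (fun s' _ h' => h')
  intro j hj s1 hf1 I1
  have g := (h.frame hf1 (by decide) (by decide)).setReg 181 j (by decide)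
  have e183 : s1.reg 183 = p := by rw [hf1.reg 183 (by decide)]; exact hp
  have m1 : (j + 1) * c1 P ≤ P.M * c1 P := Nat.mul_le_mul_right _ hj
  have m2 : (j + 1) * c1 P = j * c1 P + (wt P.w P.w + 1) := by unfold c1; ring
  have hi1 := I1.1
  have w1 := (wt_w_le h.b0).trans g.bw
  have hs5 : (s1.setReg 181 j).reg 5 = s1.reg 5 := by simp
  refine Wp.seq (wp_call (px := P.py + p * P.g) (lx := P.w) (py := P.py + j * P.g) (ly := P.w)
    (by decide) (by decide) ?_ ?_ ?_ ?_ (py_le g hpM) (py_le g hj) w1 (by omega) ?_)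
  · intro s2 hf2
    have := g.frame hf2 (by decide) (by decide)
    simp [this.r142, this.r144, hf2.reg 183 (by decide), e183]
  · intro s2 hf2
    have := g.frame hf2 (by decide) (by decide)
    simp [this.r162]
  · intro s2 hf2
    have := g.frame hf2 (by decide) (by decide)
    simp [this.r142, this.r144, hf2.reg 181 (by decide)]
  · intro s2 hf2
    have := g.frame hf2 (by decide) (by decide)
    simp [this.r162]
  · intro s2 hf2 q5 q13 qd
    have g2 := g.frame hf2 (by decide) (by decide)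
    rw [g.a1] at qd
    refine Wp.put j (P.dyy p j) ?_ ?_ ?_ ⟨?_, ?_⟩
    · simp [hf2.reg 181 (by decide)]
    · simp [q13, qd]; rfl
    · exact (dist_le_w P.Y P.Y (P.py + p * P.g) (P.py + j * P.g) P.w).trans
        ((wt_w_le h.b0).trans g2.bw)
    · simp only [State.setArr_reg]
      rw [q5, hs5, m2]
      omega
    · intro j' hj'
      simp only [State.setArr_arr]
      split_ifs with hc
      · rw [hc.2]
      · rw [hf2.arr 148 (by decide)]
        exact I1.2 j' (by
          by_contra h5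
          exact hc ⟨trivial, by omega⟩)

/-- Update of one row of `A`. -/
def ph2r : HP := .loop 181 (.reg 161)
  (.put 143 (eadd (emul (.reg 180) (.reg 161)) (.reg 181))
    (emin (.get 143 (eadd (emul (.reg 180) (.reg 161)) (.reg 181)))
      (eadd (.reg 184) (.get 148 (.reg 181)))))

theorem ph2r_wr : ph2r.wr = [181] := rfl
theorem ph2r_wa : ph2r.wa = [143] := rfl

theorem ph2r_wp {s : State} {Q : State → Prop} {i t c : ℕ} {hub : ℕ → ℕ}
    (h : Inp P ns nR o sd s) (h180 : s.reg 180 = i) (h184 : s.reg 184 = c)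
    (hc : c = P.dxy i (hub t)) (h148 : ∀ j < P.M, s.arr 148 j = P.dyy (hub t) j)
    (hA : ∀ j < P.M, s.arr 143 (i * P.M + j) = Aof P hub i j t)
    (hQ : ∀ s', Frame s s' ph2r.wr ph2r.wa →
      (∀ i' j, j < P.M → i' ≠ i → s'.arr 143 (i' * P.M + j) = s.arr 143 (i' * P.M + j)) →
      (∀ j < P.M, s'.arr 143 (i * P.M + j) = Aof P hub i j (t + 1)) → Q s') :
    Wp ρ ph2r Q s := by
  have hf := ph2r.frame ρ s
  suffices H : Wp ρ ph2r (fun s' =>
      (∀ i' j, j < P.M → i' ≠ i → s'.arr 143 (i' * P.M + j) = s.arr 143 (i' * P.M + j)) ∧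
      (∀ j < P.M, s'.arr 143 (i * P.M + j) = Aof P hub i j (t + 1))) s from hQ _ hf H.1 H.2
  unfold ph2r
  refine Wp.loopF P.M (by simpa using h.r161) h.lM (fun u s' =>
    (∀ i' j, j < P.M → i' ≠ i → s'.arr 143 (i' * P.M + j) = s.arr 143 (i' * P.M + j)) ∧
      (∀ j < P.M, s'.arr 143 (i * P.M + j) = Aof P hub i j (if j < u then t + 1 else t)))
    ⟨fun _ _ _ _ => rfl, fun j hj => by simp [hA j hj]⟩ ?_ ?_
  · intro j hj s1 hf1 I1
    have g := (h.frame hf1 (by decide) (by decide)).setReg 181 j (by decide)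
    have e180 : s1.reg 180 = i := by rw [hf1.reg 180 (by decide)]; exact h180
    have e184 : s1.reg 184 = c := by rw [hf1.reg 184 (by decide)]; exact h184
    have e148 : s1.arr 148 j = P.dyy (hub t) j := by rw [hf1.arr 148 (by decide)]; exact h148 j hj
    have eA := I1.2 j hj
    rw [if_neg (by omega)] at eA
    have r161 := g.r161
    simp at r161
    refine Wp.put (i * P.M + j) (Aof P hub i j (t + 1)) ?_ ?_ ?_ ⟨?_, ?_⟩
    · simp [e180, r161]
    · simp [e180, r161, e184, eA, e148, hc, Aof]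
    · exact (Aof_le_two hub i j (t + 1)).trans ((le_wt P.w).trans ((wt_w_le h.b0).trans g.bw))
    · intro i' j' hj' hne
      simp only [State.setArr_arr, State.setReg_arr]
      rw [if_neg]
      · exact I1.1 i' j' hj' hne
      · rintro ⟨-, h2⟩
        exact hne (addr_inj hj' hj h2).1
    · intro j' hj'
      simp only [State.setArr_arr, State.setReg_arr]
      by_cases hjj : j' = j
      · subst hjj; simp
      · rw [if_neg (by omega), I1.2 j' hj']
        by_cases h2 : j' < j
        · rw [if_pos h2, if_pos (by omega)]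
        · rw [if_neg h2, if_neg (by omega)]
  · intro s1 _ I1
    refine ⟨I1.1, fun j hj => ?_⟩
    rw [I1.2 j hj, if_pos hj]

/-- The rows of `A` for one pivot. -/
def ph2x : HP := .loop 180 (.reg 165) (.seq
  (call 0 1 (eadd (.reg 140) (emul (.reg 180) (.reg 162))) (.reg 162)
    (eadd (.reg 142) (emul (.reg 183) (.reg 144))) (.reg 162))
  (.seq (.set 184 (.get 2 (.reg 13))) ph2r))

theorem ph2x_wr : ph2x.wr = 180 :: (callW ++ [184, 181]) := rfl
theorem ph2x_wa : ph2x.wa = [2, 2, 2, 143] := rfl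

theorem ph2x_wp {s : State} {Q : State → Prop} {t : ℕ} {hub : ℕ → ℕ}
    (h : Inp P ns nR o sd s) (hp : s.reg 183 = hub t) (hpM : hub t < P.M)
    (h148 : ∀ j < P.M, s.arr 148 j = P.dyy (hub t) j) (h5 : P.k * c1 P ≤ s.reg 5)
    (hA : ∀ i < P.k, ∀ j < P.M, s.arr 143 (i * P.M + j) = Aof P hub i j t)
    (hQ : ∀ s', Frame s s' ph2x.wr ph2x.wa → s.reg 5 ≤ s'.reg 5 + P.k * c1 P →
      (∀ i < P.k, ∀ j < P.M, s'.arr 143 (i * P.M + j) = Aof P hub i j (t + 1)) → Q s') :
    Wp ρ ph2x Q s := by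
  have hf := ph2x.frame ρ s
  suffices H : Wp ρ ph2x (fun s' => s.reg 5 ≤ s'.reg 5 + P.k * c1 P ∧
      (∀ i < P.k, ∀ j < P.M, s'.arr 143 (i * P.M + j) = Aof P hub i j (t + 1))) s from
    hQ _ hf H.1 H.2
  unfold ph2x
  refine Wp.loopF P.k (by simpa using h.r165) h.lk (fun u s' =>
    s.reg 5 ≤ s'.reg 5 + u * c1 P ∧ (∀ i < P.k, ∀ j < P.M,
      s'.arr 143 (i * P.M + j) = Aof P hub i j (if i < u then t + 1 else t)))
    ⟨by omega, fun i hi j hj => by simp [hA i hi j hj]⟩ ?_ ?_
  · intro i hi s1 hf1 I1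
    have g := (h.frame hf1 (by decide) (by decide)).setReg 180 i (by decide)
    have e183 : s1.reg 183 = hub t := by rw [hf1.reg 183 (by decide)]; exact hp
    have m1 : (i + 1) * c1 P ≤ P.k * c1 P := Nat.mul_le_mul_right _ hi
    have m2 : (i + 1) * c1 P = i * c1 P + (wt P.w P.w + 1) := by unfold c1; ring
    have hi1 := I1.1
    have w1 := (wt_w_le h.b0).trans g.bw
    have hs5 : (s1.setReg 180 i).reg 5 = s1.reg 5 := by simp
    refine Wp.seq (wp_call (px := P.px + i * P.w) (lx := P.w) (py := P.py + hub t * P.g)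
      (ly := P.w) (by decide) (by decide) ?_ ?_ ?_ ?_ (px_le g hi.le) (py_le g hpM) w1
      (by omega) ?_)
    · intro s2 hf2
      have := g.frame hf2 (by decide) (by decide)
      simp [this.r140, this.r162, hf2.reg 180 (by decide)]
    · intro s2 hf2
      have := g.frame hf2 (by decide) (by decide)
      simp [this.r162]
    · intro s2 hf2
      have := g.frame hf2 (by decide) (by decide)
      simp [this.r142, this.r144, hf2.reg 183 (by decide), e183]
    · intro s2 hf2
      have := g.frame hf2 (by decide) (by decide)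
      simp [this.r162]
    · intro s2 hf2 q5 q13 qd
      have g2 := g.frame hf2 (by decide) (by decide)
      rw [g.a1, g.a0] at qd
      have bd : P.dxy i (hub t) ≤ s2.reg 3 :=
        (dist_le_w P.X P.Y (P.px + i * P.w) (P.py + hub t * P.g) P.w).trans
          ((wt_w_le h.b0).trans g2.bw)
      refine Wp.seq (Wp.set (P.dxy i (hub t)) ?_ bd ?_)
      · simp [q13, qd]; rfl
      have g3 := g2.setReg 184 (P.dxy i (hub t)) (by decide)
      refine ph2r_wp (i := i) (t := t) (hub := hub) g3 ?_ (by simp) rfl ?_ ?_ ?_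
      · simp [hf2.reg 180 (by decide)]
      · intro j hj
        simp only [State.setReg_arr]
        rw [hf2.arr 148 (by decide)]
        simp only [State.setReg_arr]
        rw [hf1.arr 148 (by decide)]
        exact h148 j hj
      · intro j hj
        simp only [State.setReg_arr]
        rw [hf2.arr 143 (by decide)]
        simp only [State.setReg_arr]
        rw [I1.2 i hi j hj, if_neg (by omega)]
      · intro s3 hf3 k1 k2
        refine ⟨?_, ?_⟩
        · rw [hf3.reg 5 (by decide)]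
          simp only [State.setReg_reg]
          rw [if_neg (by decide), q5, hs5, m2]
          omega
        · intro i' hi' j hj
          by_cases hii : i' = i
          · subst hii
            rw [k2 j hj, if_pos (by omega)]
          · rw [k1 i' j hj hii]
            simp only [State.setReg_arr]
            rw [hf2.arr 143 (by decide)]
            simp only [State.setReg_arr]
            rw [I1.2 i' hi' j hj]
            by_cases h2 : i' < i
            · rw [if_pos h2, if_pos (by omega)]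
            · rw [if_neg h2, if_neg (by omega)]
  · intro s1 _ I1
    refine ⟨I1.1, fun i hi j hj => ?_⟩
    rw [I1.2 i hi j hj, if_pos hi]

/-- All pivots. -/
def ph2 : HP := .loop 182 (.reg 148) (.seq
  (.set 183 (emod (.get 140 (eadd (.reg 151) (.reg 182))) (.reg 161)))
  (.seq ph2y ph2x))

theorem ph2_wr : ph2.wr = 182 :: 183 :: (181 :: callW ++ (180 :: (callW ++ [184, 181]))) := rfl
theorem ph2_wa : ph2.wa = [2, 2, 2, 148, 2, 2, 2, 143] := rfl

theorem ph2_wp {s : State} {Q : State → Prop} (h : Inp P ns nR o sd s)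
    (h5 : ns * ((P.M + P.k) * c1 P) ≤ s.reg 5)
    (hA : ∀ i < P.k, ∀ j < P.M, s.arr 143 (i * P.M + j) = 2 * P.w)
    (hQ : ∀ s', Frame s s' ph2.wr ph2.wa → s.reg 5 ≤ s'.reg 5 + ns * ((P.M + P.k) * c1 P) →
      (∀ i < P.k, ∀ j < P.M, s'.arr 143 (i * P.M + j) = Aof P (hubOf P o sd) i j ns) → Q s') :
    Wp ρ ph2 Q s := by
  have hf := ph2.frame ρ s
  suffices H : Wp ρ ph2 (fun s' => s.reg 5 ≤ s'.reg 5 + ns * ((P.M + P.k) * c1 P) ∧
      (∀ i < P.k, ∀ j < P.M, s'.arr 143 (i * P.M + j) = Aof P (hubOf P o sd) i j ns)) s from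
    hQ _ hf H.1 H.2
  unfold ph2
  refine Wp.loopF ns (by simpa using h.r148) h.ls (fun u s' =>
    s.reg 5 ≤ s'.reg 5 + u * ((P.M + P.k) * c1 P) ∧ (∀ i < P.k, ∀ j < P.M,
      s'.arr 143 (i * P.M + j) = Aof P (hubOf P o sd) i j u)) ⟨by omega, hA⟩ ?_
    (fun s' _ h' => h')
  intro t ht s1 hf1 I1
  have g := (h.frame hf1 (by decide) (by decide)).setReg 182 t (by decide)
  have m1 : (t + 1) * ((P.M + P.k) * c1 P) ≤ ns * ((P.M + P.k) * c1 P) :=
    Nat.mul_le_mul_right _ ht
  have m2 : (t + 1) * ((P.M + P.k) * c1 P) = t * ((P.M + P.k) * c1 P) +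
    (P.M * c1 P + P.k * c1 P) := by ring
  have hi1 := I1.1
  have hlt : hubOf P o sd t < P.M := Nat.mod_lt _ h.M0
  refine Wp.seq (Wp.set (hubOf P o sd t) ?_ (hlt.le.trans (g.lM.trans g.l34)) ?_)
  · have a := g.a140
    have b := g.r151
    have c := g.r161
    simp at a b c
    simp [a, b, c, hubOf]
  have g1 := g.setReg 183 (hubOf P o sd t) (by decide)
  refine Wp.seq (ph2y_wp g1 (by simp) hlt (by simp; omega) ?_)
  intro s2 hf2 q5 q148
  have g2 := g1.frame hf2 (by decide) (by decide)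
  have e5 : ((s1.setReg 182 t).setReg 183 (hubOf P o sd t)).reg 5 = s1.reg 5 := by simp
  refine ph2x_wp (t := t) (hub := hubOf P o sd) g2 ?_ hlt q148 (by omega) ?_ ?_
  · rw [hf2.reg 183 (by decide)]; simp
  · intro i hi j hj
    rw [hf2.arr 143 (by decide)]
    exact I1.2 i hi j hj
  · intro s3 hf3 k5 kA
    exact ⟨by omega, kA⟩

end Vale.Agent.P315.H933
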